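import Crest.Agent.R82.CellIneq

/-! Stability of barycentres of Laguerre cells under a change of the source density. -/

set_option autoImplicit false

namespace Crest.Agent.R82

open MeasureTheory Set Filter
open scoped RealInnerProductSpace Topology ENNReal

variable {d : ℕ}

lemma volume_ne_top_of_subset {R : ℝ} {S : Set (Euc d)} (hS : S ⊆ Metric.closedBall 0 R) :
    volume S ≠ ∞ :=
  ne_top_of_le_ne_top (isCompact_closedBall (0 : Euc d) R).measure_lt_top.ne (measure_mono hS)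

lemma integrableOn_of_bdd {R : ℝ} {S : Set (Euc d)} (hS : S ⊆ Metric.closedBall 0 R)
    (hSm : MeasurableSet S) {f : Euc d → ℝ} (hf : Measurable f) (C : ℝ)
    (h : ∀ x ∈ S, |f x| ≤ C) : IntegrableOn f S :=
  Measure.integrableOn_of_bounded (volume_ne_top_of_subset hS) hf.aestronglyMeasurable
    (M := C) ((ae_restrict_iff' hSm).2 (Eventually.of_forall h))

/-- The measure with density `s` on `K`. -/
noncomputable def dens (K : Set (Euc d)) (s : Euc d → ℝ) : Measure (Euc d) :=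
  (volume.restrict K).withDensity fun x => ENNReal.ofReal (s x)

lemma dens_ac (K : Set (Euc d)) (s : Euc d → ℝ) : dens K s ≪ volume.restrict K :=
  withDensity_absolutelyContinuous _ _

lemma restrict_ac (K : Set (Euc d)) : volume.restrict K ≪ volume :=
  Measure.absolutelyContinuous_of_le Measure.restrict_le_self

lemma ae_norm_le_restrict {R : ℝ} {K : Set (Euc d)} (hK : MeasurableSet K)
    (hKR : K ⊆ Metric.closedBall 0 R) : ∀ᵐ x ∂volume.restrict K, ‖x‖ ≤ R :=
  (ae_restrict_iff' hK).2 (Eventually.of_forall fun x hx => by simpa using hKR hx)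

lemma isFiniteMeasure_restrict' {R : ℝ} {K : Set (Euc d)} (hKR : K ⊆ Metric.closedBall 0 R) :
    IsFiniteMeasure (volume.restrict K) :=
  isFiniteMeasure_restrict.2 (volume_ne_top_of_subset hKR)

lemma isFiniteMeasure_dens {R : ℝ} {K : Set (Euc d)} (hK : MeasurableSet K)
    (hKR : K ⊆ Metric.closedBall 0 R) {s : Euc d → ℝ} (hs : Measurable s) (C : ℝ)
    (hC : ∀ x, |s x| ≤ C) : IsFiniteMeasure (dens K s) :=
  isFiniteMeasure_withDensity_ofReal (integrableOn_of_bdd hKR hK hs C fun x _ => hC x).2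

lemma integral_dens (K : Set (Euc d)) {s : Euc d → ℝ} (hs : Measurable s) (h0 : ∀ x, 0 ≤ s x)
    (f : Euc d → ℝ) : ∫ x, f x ∂dens K s = ∫ x in K, s x * f x := by
  rw [dens, integral_withDensity_eq_integral_toReal_smul hs.ennreal_ofReal (by simp)]
  simp only [ENNReal.toReal_ofReal (h0 _), smul_eq_mul]

lemma setIntegral_dens (K : Set (Euc d)) {s : Euc d → ℝ} (hs : Measurable s) (h0 : ∀ x, 0 ≤ s x)
    (f : Euc d → ℝ) {A : Set (Euc d)} (hA : MeasurableSet A) :
    ∫ x in A, f x ∂dens K s = ∫ x in A ∩ K, s x * f x := by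
  rw [dens, setIntegral_withDensity_eq_setIntegral_toReal_smul hs.ennreal_ofReal (by simp) _ hA,
    Measure.restrict_restrict hA]
  simp only [ENNReal.toReal_ofReal (h0 _), smul_eq_mul]

lemma dens_real (K : Set (Euc d)) {s : Euc d → ℝ} (hs : Measurable s) (h0 : ∀ x, 0 ≤ s x)
    {A : Set (Euc d)} (hA : MeasurableSet A) : (dens K s).real A = ∫ x in A ∩ K, s x := by
  have := setIntegral_dens K hs h0 (fun _ => 1) hA
  simpa using this

lemma cell_dens {R : ℝ} {L : Set (Euc d)} (hL : MeasurableSet L)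
    (hLR : L ⊆ Metric.closedBall 0 R) {s : Euc d → ℝ} (hs : Measurable s)
    (hs1 : ∀ x, 1 / 2 ≤ s x) (hs2 : ∀ x, s x ≤ 3 / 2) {m : ℝ} (hm : ∫ x in L, s x = m)
    (hm0 : 0 < m) (v : Euc d) :
    2 / 3 * m ≤ volume.real L ∧ volume.real L ≤ 2 * m ∧
      (m - volume.real L) ^ 2 / m ≤ 2 * ∫ x in L, (s x - 1) ^ 2 ∧
      (∫ x in L, ⟪x, v⟫) - ∫ x in L, s x * ⟪x, v⟫ ≤
        m * (R * ‖v‖) ^ 2 + ∫ x in L, (s x - 1) ^ 2 := by
  have hsi : IntegrableOn s L :=
    integrableOn_of_bdd hLR hL hs 2 fun x _ => abs_le.2 ⟨by linarith [hs1 x], by linarith [hs2 x]⟩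
  have hs2i : IntegrableOn (fun x => (s x - 1) ^ 2) L :=
    integrableOn_of_bdd hLR hL (by fun_prop) 1 fun x _ => by
      rw [abs_of_nonneg (sq_nonneg _)]; nlinarith [hs1 x, hs2 x]
  have hc : ∀ c : ℝ, IntegrableOn (fun _ : Euc d => c) L := fun c =>
    integrableOn_of_subset_ball hLR continuous_const
  have h1 : m ≤ 3 / 2 * volume.real L := by
    have := integral_mono hsi (hc (3 / 2)) hs2
    rw [hm] at this
    simpa [mul_comm] using this
  have h2 : 1 / 2 * volume.real L ≤ m := by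
    have := integral_mono (hc (1 / 2)) hsi hs1
    rw [hm] at this
    simpa [mul_comm] using this
  refine ⟨by linarith, by linarith, ?_, ?_⟩
  · set t := (m - volume.real L) / m with ht
    have h3 := integral_mono ((hsi.sub (hc 1)).const_mul t) ((hc (t ^ 2 / 4)).add hs2i)
      (fun x => by simp only [Pi.sub_apply, Pi.add_apply]; nlinarith [sq_nonneg (t / 2 - (s x - 1))])
    simp only [Pi.sub_apply, Pi.add_apply] at h3
    rw [integral_const_mul, integral_sub hsi (hc 1), integral_add (hc _) hs2i, hm,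
      setIntegral_const, setIntegral_const, smul_eq_mul, smul_eq_mul, mul_one] at h3
    have e1 : (m - volume.real L) ^ 2 / m = t * (m - volume.real L) := by rw [ht]; field_simp
    have e2 : t * (m - volume.real L) = m * t ^ 2 := by rw [ht]; field_simp
    have h4 : volume.real L * (t ^ 2 / 4) ≤ 2 * m * (t ^ 2 / 4) :=
      mul_le_mul_of_nonneg_right (by linarith) (by positivity)
    rw [e1]
    linarith
  · have hb : ∀ x ∈ L, |⟪x, v⟫| ≤ R * ‖v‖ := fun x hx => by
      refine (abs_real_inner_le_norm x v).trans ?_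
      have h1 : ‖x‖ ≤ R := by simpa using hLR hx
      gcongr
    have hi1 : IntegrableOn (fun x : Euc d => ⟪x, v⟫) L :=
      integrableOn_of_subset_ball hLR (by fun_prop)
    have hi2 : IntegrableOn (fun x : Euc d => s x * ⟪x, v⟫) L :=
      integrableOn_of_bdd hLR hL (by fun_prop) (2 * (R * ‖v‖)) fun x hx => by
        rw [abs_mul]
        exact mul_le_mul (abs_le.2 ⟨by linarith [hs1 x], by linarith [hs2 x]⟩) (hb x hx)
          (abs_nonneg _) (by norm_num)
    have h3 := setIntegral_mono_on (hi1.sub hi2) ((hc ((R * ‖v‖) ^ 2 / 2)).add hs2i) hL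
      (fun x hx => by
        simp only [Pi.sub_apply, Pi.add_apply]
        have := sq_le_sq' (abs_le.1 (hb x hx)).1 (abs_le.1 (hb x hx)).2
        nlinarith [sq_nonneg (⟪x, v⟫ + (s x - 1)), sq_nonneg (s x - 1)])
    simp only [Pi.sub_apply, Pi.add_apply] at h3
    rw [integral_sub hi1 hi2, integral_add (hc _) hs2i, setIntegral_const, smul_eq_mul] at h3
    have h4 : volume.real L * ((R * ‖v‖) ^ 2 / 2) ≤ 2 * m * ((R * ‖v‖) ^ 2 / 2) :=
      mul_le_mul_of_nonneg_right (by linarith) (by positivity)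
    linarith

variable {ι : Type*} [Fintype ι] [Nonempty ι]

lemma setIntegral_eq_sum_cell {y : ι → Euc d} (hy : Function.Injective y) (p : ι → ℝ)
    {K : Set (Euc d)} {f : Euc d → ℝ} (hf : IntegrableOn f K) :
    ∫ x in K, f x = ∑ i, ∫ x in cell y p i ∩ K, f x := by
  rw [integral_eq_sum_cell hy p (restrict_ac K) hf]
  simp only [Measure.restrict_restrict (measurableSet_cell y p _)]

theorem bary_ineq {R : ℝ} (hR : 0 < R) {K : Set (Euc d)} (hK : MeasurableSet K)
    (hKv : Convex ℝ K) (hKR : K ⊆ Metric.closedBall 0 R) {s : Euc d → ℝ} (hs : Measurable s)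
    (hs1 : ∀ x, 1 / 2 ≤ s x) (hs2 : ∀ x, s x ≤ 3 / 2) {m : ι → ℝ} (hm0 : ∀ i, 0 < m i)
    {y : ι → Euc d} (hy : Function.Injective y) {p p' : ι → ℝ}
    (hp : ∀ i, (volume.restrict K).real (cell y p i) = m i)
    (hp' : ∀ i, (dens K s).real (cell y p' i) = m i) (v : ι → Euc d) :
    ∑ i, ∫ x in cell y p i, ⟪x, v i⟫ ∂(volume.restrict K) -
      ∑ i, ∫ x in cell y p' i, ⟪x, v i⟫ ∂(dens K s) ≤
      526 * R ^ 2 * ∑ i, m i * ‖v i‖ ^ 2 + 17 * ∫ x in K, (s x - 1) ^ 2 := by
  have h0 : ∀ x, 0 ≤ s x := fun x => by linarith [hs1 x]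
  set l : ℝ := 1 / (32 * R ^ 2)
  have hgi : IntegrableOn (gw l) K := integrableOn_of_subset_ball hKR (continuous_gw l)
  have hs2i : IntegrableOn (fun x => (s x - 1) ^ 2) K :=
    integrableOn_of_bdd hKR hK (by fun_prop) 1 fun x _ => by
      rw [abs_of_nonneg (sq_nonneg _)]; nlinarith [hs1 x, hs2 x]
  set p'' : ι → ℝ := fun i => (p i + p' i) / 2 with hp''
  have e1 := setIntegral_eq_sum_cell hy p hgi
  have e2 := setIntegral_eq_sum_cell hy p' hgi
  have e3 := setIntegral_eq_sum_cell hy p'' hgi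
  have e4 := setIntegral_eq_sum_cell hy p' hs2i
  have key : ∀ i, (∫ x in cell y p i, ⟪x, v i⟫ ∂(volume.restrict K)) -
      ∫ x in cell y p' i, ⟪x, v i⟫ ∂(dens K s) ≤
      2 * (∫ x in cell y p'' i ∩ K, gw l x) - (∫ x in cell y p i ∩ K, gw l x) -
        (∫ x in cell y p' i ∩ K, gw l x) + 526 * R ^ 2 * (m i * ‖v i‖ ^ 2) +
        17 * ∫ x in cell y p' i ∩ K, (s x - 1) ^ 2 := by
    intro i
    have hmeas : ∀ q, MeasurableSet (cell y q i ∩ K) := fun q => (measurableSet_cell y q i).inter hK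
    have hsub : ∀ q, cell y q i ∩ K ⊆ Metric.closedBall 0 R := fun q => inter_subset_right.trans hKR
    have a1 := hp i
    rw [measureReal_restrict_apply (measurableSet_cell y p i)] at a1
    have a2 := hp' i
    rw [dens_real K hs h0 (measurableSet_cell y p' i)] at a2
    obtain ⟨b1, b2, b3, b4⟩ := cell_dens (hmeas p') (hsub p') hs hs1 hs2 a2 (hm0 i) (v i)
    have c1 := cell_ineq hR (hmeas p) (hmeas p') (hmeas p'') (hsub p) (hsub p') (hsub p'')
      (fun x hx x' hx' => ⟨fun j => by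
          have := hx.1 j
          have := hx'.1 j
          simp only [inner_add_left, inner_smul_left, hp'', conj_trivial]
          linarith,
        hKv hx.2 hx'.2 (by norm_num) (by norm_num) (by norm_num)⟩)
      (by rw [a1]; exact hm0 i) (by rw [a1]; exact b1) (by rw [a1]; exact b2) (v i)
    rw [a1] at c1
    rw [setIntegral_dens K hs h0 _ (measurableSet_cell y p' i),
      Measure.restrict_restrict (measurableSet_cell y p i)]
    have e : 8 * (m i - volume.real (cell y p' i ∩ K)) ^ 2 / m i =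
        8 * ((m i - volume.real (cell y p' i ∩ K)) ^ 2 / m i) := by ring
    rw [e] at c1
    linarith
  rw [← Finset.sum_sub_distrib]
  refine (Finset.sum_le_sum fun i _ => key i).trans (le_of_eq ?_)
  simp only [Finset.sum_add_distrib, Finset.sum_sub_distrib, ← Finset.mul_sum]
  rw [← e1, ← e2, ← e3, ← e4]
  ring

theorem bary_ineq' {R : ℝ} (hR : 0 < R) {K : Set (Euc d)} (hK : MeasurableSet K)
    (hKv : Convex ℝ K) (hKR : K ⊆ Metric.closedBall 0 R) {s : Euc d → ℝ} (hs : Measurable s)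
    (hs1 : ∀ x, 1 / 2 ≤ s x) (hs2 : ∀ x, s x ≤ 3 / 2) {m : ι → ℝ} (hm0 : ∀ i, 0 < m i)
    {y : ι → Euc d} (hy : Function.Injective y) {p p' : ι → ℝ}
    (hp : ∀ i, (volume.restrict K).real (cell y p i) = m i)
    (hp' : ∀ i, (dens K s).real (cell y p' i) = m i) (v : ι → Euc d) {β : ℝ} (hβ : 0 < β) :
    ∑ i, ∫ x in cell y p i, ⟪x, v i⟫ ∂(volume.restrict K) -
      ∑ i, ∫ x in cell y p' i, ⟪x, v i⟫ ∂(dens K s) ≤
      526 * R ^ 2 * β * ∑ i, m i * ‖v i‖ ^ 2 + 17 / β * ∫ x in K, (s x - 1) ^ 2 := by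
  have h := bary_ineq hR hK hKv hKR hs hs1 hs2 hm0 hy hp hp' (fun i => β • v i)
  simp only [inner_smul_right, integral_const_mul, ← Finset.mul_sum, norm_smul, mul_pow,
    Real.norm_eq_abs, sq_abs] at h
  have e : ∑ i, m i * (β ^ 2 * ‖v i‖ ^ 2) = β ^ 2 * ∑ i, m i * ‖v i‖ ^ 2 := by
    rw [Finset.mul_sum]; exact Finset.sum_congr rfl fun i _ => by ring
  rw [e, ← mul_sub] at h
  refine le_of_mul_le_mul_left (h.trans (le_of_eq ?_)) hβ
  field_simp

end Crest.Agent.R82
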