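import Crest.Agent.R82.Laguerre
import Crest.Agent.Lib.PrekopaLeindler.Basic

/-! The one-cell inequality coming from Prékopa–Leindler with a Gaussian weight. -/

set_option autoImplicit false

namespace Crest.Agent.R82

open MeasureTheory Set Filter
open scoped RealInnerProductSpace Topology ENNReal

variable {d : ℕ}

lemma integrableOn_of_subset_ball {R : ℝ} {L : Set (Euc d)} (hL : L ⊆ Metric.closedBall 0 R)
    {F : Type*} [NormedAddCommGroup F] {f : Euc d → F} (hf : Continuous f) :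
    IntegrableOn f L :=
  (hf.continuousOn.integrableOn_compact (isCompact_closedBall 0 R)).mono_set hL

lemma real_PL {R : ℝ} {L L' M : Set (Euc d)} (hL : MeasurableSet L) (hL' : MeasurableSet L')
    (hM : MeasurableSet M) (hLR : L ⊆ Metric.closedBall 0 R) (hL'R : L' ⊆ Metric.closedBall 0 R)
    (hMR : M ⊆ Metric.closedBall 0 R) {f g h : Euc d → ℝ} (hf : Continuous f) (hg : Continuous g)
    (hh : Continuous h) (f0 : ∀ x, 0 ≤ f x) (g0 : ∀ x, 0 ≤ g x) (h0 : ∀ x, 0 ≤ h x)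
    (H : ∀ x ∈ L, ∀ x' ∈ L', (1 / 2 : ℝ) • x + (1 / 2 : ℝ) • x' ∈ M ∧
      f x * g x' ≤ h ((1 / 2 : ℝ) • x + (1 / 2 : ℝ) • x') ^ 2) :
    (∫ x in L, f x) * (∫ x in L', g x) ≤ (∫ x in M, h x) ^ 2 := by
  have key := Crest.Agent.Lib.PL.prekopa_leindler (t := 1 / 2) (by norm_num) (by norm_num)
    (L.indicator fun x => ENNReal.ofReal (f x)) (L'.indicator fun x => ENNReal.ofReal (g x))
    (M.indicator fun x => ENNReal.ofReal (h x))
    (hf.measurable.ennreal_ofReal.indicator hL) (hg.measurable.ennreal_ofReal.indicator hL')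
    (hh.measurable.ennreal_ofReal.indicator hM) (fun x x' => by
      have e : (1 : ℝ) - 1 / 2 = 1 / 2 := by norm_num
      rw [e]
      by_cases hx : x ∈ L
      swap
      · simp [indicator_of_notMem hx]
      by_cases hx' : x' ∈ L'
      swap
      · simp [indicator_of_notMem hx']
      obtain ⟨h1, h2⟩ := H x hx x' hx'
      rw [indicator_of_mem hx, indicator_of_mem hx', indicator_of_mem h1,
        ← ENNReal.mul_rpow_of_nonneg _ _ (by norm_num), ← ENNReal.ofReal_mul (f0 x),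
        ENNReal.ofReal_rpow_of_nonneg (mul_nonneg (f0 x) (g0 x')) (by norm_num)]
      refine ENNReal.ofReal_le_ofReal ?_
      rw [← Real.sqrt_eq_rpow]
      exact Real.sqrt_le_iff.2 ⟨h0 _, h2⟩)
  have e : (1 : ℝ) - 1 / 2 = 1 / 2 := by norm_num
  rw [e, lintegral_indicator hL, lintegral_indicator hL', lintegral_indicator hM,
    ← ofReal_integral_eq_lintegral_ofReal (integrableOn_of_subset_ball hLR hf)
      (Eventually.of_forall f0),
    ← ofReal_integral_eq_lintegral_ofReal (integrableOn_of_subset_ball hL'R hg)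
      (Eventually.of_forall g0),
    ← ofReal_integral_eq_lintegral_ofReal (integrableOn_of_subset_ball hMR hh)
      (Eventually.of_forall h0),
    ← ENNReal.mul_rpow_of_nonneg _ _ (by norm_num), ← ENNReal.ofReal_mul (integral_nonneg f0),
    ENNReal.ofReal_rpow_of_nonneg (mul_nonneg (integral_nonneg f0) (integral_nonneg g0))
      (by norm_num), ENNReal.ofReal_le_ofReal_iff (integral_nonneg h0), ← Real.sqrt_eq_rpow] at key
  exact (Real.sqrt_le_iff.1 key).2

lemma jensen_exp {R : ℝ} {L : Set (Euc d)} (hLR : L ⊆ Metric.closedBall 0 R) {q a : Euc d → ℝ}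
    (hq : Continuous q) (ha : Continuous a) (q0 : ∀ x, 0 ≤ q x) (hγ : 0 < ∫ x in L, q x) :
    (∫ x in L, q x) * Real.exp ((∫ x in L, q x * a x) / ∫ x in L, q x) ≤
      ∫ x in L, q x * Real.exp (a x) := by
  set c := (∫ x in L, q x * a x) / ∫ x in L, q x with hc
  have h1 : ∫ x in L, (Real.exp c * (1 - c) * q x + Real.exp c * (q x * a x)) ≤
      ∫ x in L, q x * Real.exp (a x) := by
    refine integral_mono (integrableOn_of_subset_ball hLR (by fun_prop))
      (integrableOn_of_subset_ball hLR (by fun_prop)) fun x => ?_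
    have h2 : Real.exp c * (a x - c + 1) ≤ Real.exp (a x) := by
      have := mul_le_mul_of_nonneg_left (Real.add_one_le_exp (a x - c)) (Real.exp_pos c).le
      rwa [← Real.exp_add, add_sub_cancel] at this
    have := mul_le_mul_of_nonneg_left h2 (q0 x)
    simp only
    linarith
  rw [integral_add (integrableOn_of_subset_ball hLR (by fun_prop))
    (integrableOn_of_subset_ball hLR (by fun_prop)), integral_const_mul, integral_const_mul] at h1
  have h3 : ∫ x in L, q x * a x = c * ∫ x in L, q x := by rw [hc]; field_simp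
  rw [h3] at h1
  linarith

/-- The Gaussian weight. -/
noncomputable def gw (l : ℝ) (x : Euc d) : ℝ := Real.exp (-(l * ‖x‖ ^ 2 / 2))

lemma continuous_gw (l : ℝ) : Continuous (gw l : Euc d → ℝ) := by unfold gw; fun_prop

lemma gw_pos (l : ℝ) (x : Euc d) : 0 < gw l x := Real.exp_pos _

lemma norm_mid_sq (x x' : Euc d) : ‖(1 / 2 : ℝ) • x + (1 / 2 : ℝ) • x'‖ ^ 2 =
    (‖x‖ ^ 2 + ‖x'‖ ^ 2) / 2 - ‖x - x'‖ ^ 2 / 4 := by
  rw [← smul_add, norm_smul, mul_pow, norm_add_sq_real, norm_sub_sq_real]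
  norm_num; ring

lemma gauss_PL {R l : ℝ} (hl : 0 < l) {L L' M : Set (Euc d)} (hL : MeasurableSet L)
    (hL' : MeasurableSet L') (hM : MeasurableSet M) (hLR : L ⊆ Metric.closedBall 0 R)
    (hL'R : L' ⊆ Metric.closedBall 0 R) (hMR : M ⊆ Metric.closedBall 0 R)
    (hmid : ∀ x ∈ L, ∀ x' ∈ L', (1 / 2 : ℝ) • x + (1 / 2 : ℝ) • x' ∈ M)
    {a : Euc d → ℝ} (ha : Continuous a) {ℓ : ℝ}
    (hlip : ∀ x ∈ L, ∀ x' ∈ L', a x - a x' ≤ ℓ * ‖x - x'‖)
    (hγ : 0 < ∫ x in L, gw l x) {r : ℝ} (hr : 0 < r)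
    (hγ' : ∫ x in L', gw l x = r ^ 2 * ∫ x in L, gw l x) :
    r * (∫ x in L, gw l x) * (1 + ((∫ x in L, gw l x * a x) / (∫ x in L, gw l x) -
      (∫ x in L', gw l x * a x) / (∫ x in L', gw l x)) / 2 - ℓ ^ 2 / (2 * l)) ≤
      ∫ x in M, gw l x := by
  have cg := continuous_gw (d := d) l
  have h1 := real_PL hL hL' hM hLR hL'R hMR (f := fun x => gw l x * Real.exp (a x))
    (g := fun x => gw l x * Real.exp (-a x)) (h := fun x => Real.exp (ℓ ^ 2 / (2 * l)) * gw l x)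
    (by fun_prop) (by fun_prop) (by fun_prop)
    (fun x => (mul_pos (gw_pos l x) (Real.exp_pos _)).le)
    (fun x => (mul_pos (gw_pos l x) (Real.exp_pos _)).le)
    (fun x => (mul_pos (Real.exp_pos _) (gw_pos l x)).le) (fun x hx x' hx' => by
      refine ⟨hmid x hx x' hx', ?_⟩
      simp only [gw, ← Real.exp_add, sq (Real.exp _)]
      refine Real.exp_le_exp.2 ?_
      rw [norm_mid_sq]
      have h2 := hlip x hx x' hx'
      have h3 : ℓ * ‖x - x'‖ ≤ l * ‖x - x'‖ ^ 2 / 4 + ℓ ^ 2 / l := by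
        have : l * ‖x - x'‖ ^ 2 / 4 + ℓ ^ 2 / l - ℓ * ‖x - x'‖ =
            (l * ‖x - x'‖ / 2 - ℓ) ^ 2 / l := by field_simp; ring
        have : 0 ≤ (l * ‖x - x'‖ / 2 - ℓ) ^ 2 / l := by positivity
        linarith
      have h4 : ℓ ^ 2 / (2 * l) + ℓ ^ 2 / (2 * l) = ℓ ^ 2 / l := by field_simp; ring
      linarith)
  have hγ'0 : 0 < ∫ x in L', gw l x := by rw [hγ']; positivity
  have j1 := jensen_exp hLR cg ha (fun x => (gw_pos l x).le) hγ
  have j2 := jensen_exp hL'R cg ha.neg (fun x => (gw_pos l x).le) hγ'0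
  simp only [Pi.neg_apply, mul_neg, integral_neg] at j2
  rw [integral_const_mul] at h1
  set γ := ∫ x in L, gw l x
  set γ' := ∫ x in L', gw l x
  set γM := ∫ x in M, gw l x
  set A := ∫ x in L, gw l x * a x
  set A' := ∫ x in L', gw l x * a x
  have hM0 : 0 ≤ γM := integral_nonneg fun x => (gw_pos l x).le
  have h5 : (γ * Real.exp (A / γ)) * (γ' * Real.exp (-A' / γ')) ≤
      (Real.exp (ℓ ^ 2 / (2 * l)) * γM) ^ 2 :=
    le_trans (mul_le_mul j1 j2 (by positivity) (le_trans (by positivity) j1)) h1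
  have h6 : (γ * Real.exp (A / γ)) * (γ' * Real.exp (-A' / γ')) =
      (Real.exp (ℓ ^ 2 / (2 * l)) *
        (r * γ * Real.exp ((A / γ - A' / γ') / 2 - ℓ ^ 2 / (2 * l)))) ^ 2 := by
    have : Real.exp (A / γ) * Real.exp (-A' / γ') = (Real.exp (ℓ ^ 2 / (2 * l)) *
        Real.exp ((A / γ - A' / γ') / 2 - ℓ ^ 2 / (2 * l))) ^ 2 := by
      rw [← Real.exp_add, ← Real.exp_add, sq (Real.exp _), ← Real.exp_add]
      congr 1; ring
    calc _ = γ * γ' * (Real.exp (A / γ) * Real.exp (-A' / γ')) := by ring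
      _ = _ := by rw [this]; nth_rewrite 1 [hγ']; ring
  rw [h6, pow_le_pow_iff_left₀ (by positivity) (by positivity) two_ne_zero] at h5
  have h7 := le_of_mul_le_mul_left h5 (Real.exp_pos _)
  refine le_trans (mul_le_mul_of_nonneg_left ?_ (by positivity)) h7
  linarith [Real.add_one_le_exp ((A / γ - A' / γ') / 2 - ℓ ^ 2 / (2 * l))]

lemma cell_arith {m m' γ γ' γM r β β' R ν L2 : ℝ} (hm : 0 < m) (hm'1 : m' ≤ 2 * m)
    (hγ0 : 0 < γ) (hγ1 : γ ≤ m) (hr1 : 1 / 2 ≤ r) (hr2 : r ≤ 2)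
    (hγ' : γ' = r ^ 2 * γ) (hβ : |β| ≤ R * ν * m) (hβ' : |β'| ≤ R * ν * m') (hRν : 0 ≤ R * ν)
    (hL2 : L2 ≤ 128 * (R * ν) ^ 2 + (r - 1) ^ 2 / 4)
    (H : r * γ * (1 + ((β + 2 * (r - 1) * m) / γ - (β' + 2 * (r - 1) * m') / γ') / 2 - L2) ≤ γM) :
    β - β' ≤ 2 * γM - γ - γ' + 525 * m * (R * ν) ^ 2 + 8 * (m - m') ^ 2 / m := by
  have hr0 : 0 < r := by linarith
  set w := r⁻¹ with hw
  have hw1 : 1 / 2 ≤ w := by rw [hw, le_inv_comm₀ (by norm_num) hr0]; linarith
  have hw2 : w ≤ 2 := by rw [hw, inv_le_comm₀ hr0 (by norm_num)]; linarith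
  have hrw : r * w = 1 := mul_inv_cancel₀ hr0.ne'
  set δ := r - 1 with hδ
  set S := R * ν with hS
  have e1 : r * γ * (1 + ((β + 2 * δ * m) / γ - (β' + 2 * δ * m') / γ') / 2 - L2) =
      r * γ + (r * (β + 2 * δ * m) - w * (β' + 2 * δ * m')) / 2 - r * γ * L2 := by
    rw [hγ', hw]; field_simp
  have e2 : 2 * (r * γ) = γ + γ' - γ * δ ^ 2 := by rw [hγ', hδ]; ring
  have e3 : r * (β + 2 * δ * m) - w * (β' + 2 * δ * m') =
      (β - β') + δ * β + δ * w * β' + 2 * m * δ ^ 2 * (1 + w) + 2 * δ * w * (m - m') := by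
    have h1 : r = 1 + δ := by rw [hδ]; ring
    have h2 : w = 1 - δ * w := by rw [hδ]; linarith
    have h3 : r - w = δ * (1 + w) := by linarith
    calc _ = (1 + δ) * β - (1 - δ * w) * β' + 2 * δ * m * (r - w) + 2 * δ * w * (m - m') := by
          rw [← h1, ← h2]; ring
      _ = _ := by rw [h3]; ring
  rw [e1, e3] at H
  have hδ2 : 0 ≤ δ ^ 2 := sq_nonneg δ
  have i1 : γ * δ ^ 2 ≤ m * δ ^ 2 := mul_le_mul_of_nonneg_right hγ1 hδ2
  have i2 : 3 * (m * δ ^ 2) ≤ 2 * m * δ ^ 2 * (1 + w) := by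
    have : 0 ≤ m * δ ^ 2 := by positivity
    nlinarith
  have i3 : r * γ * L2 ≤ 256 * m * S ^ 2 + m * δ ^ 2 / 2 := by
    have h1 : r * γ ≤ 2 * m := mul_le_mul hr2 hγ1 hγ0.le (by norm_num)
    calc r * γ * L2 ≤ r * γ * (128 * S ^ 2 + δ ^ 2 / 4) :=
          mul_le_mul_of_nonneg_left hL2 (by positivity)
      _ ≤ 2 * m * (128 * S ^ 2 + δ ^ 2 / 4) := mul_le_mul_of_nonneg_right h1 (by positivity)
      _ = _ := by ring
  have i4 : -(|δ| * (S * m)) ≤ δ * β := by
    have : |δ * β| ≤ |δ| * (S * m) := by rw [abs_mul]; gcongr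
    linarith [neg_abs_le (δ * β)]
  have i5 : -(|δ| * (4 * (S * m))) ≤ δ * w * β' := by
    have : |δ * w * β'| ≤ |δ| * (4 * (S * m)) := by
      rw [abs_mul, abs_mul, mul_assoc, abs_of_pos (by linarith : 0 < w)]
      refine mul_le_mul_of_nonneg_left ?_ (abs_nonneg _)
      have h1 : |β'| ≤ S * (2 * m) := hβ'.trans (mul_le_mul_of_nonneg_left hm'1 hRν)
      calc w * |β'| ≤ 2 * (S * (2 * m)) := mul_le_mul hw2 h1 (abs_nonneg _) (by norm_num)
        _ = _ := by ring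
    linarith [neg_abs_le (δ * w * β')]
  have i6 : 5 * (|δ| * (S * m)) ≤ m * δ ^ 2 / 2 + 25 / 2 * m * S ^ 2 := by
    have : 0 ≤ m * (|δ| - 5 * S) ^ 2 := by positivity
    rw [← sq_abs δ]; nlinarith
  have i7 : -(m * δ ^ 2 / 2 + 8 * (m - m') ^ 2 / m) ≤ 2 * δ * w * (m - m') := by
    have h1 : 2 * w ^ 2 * (m - m') ^ 2 / m ≤ 8 * (m - m') ^ 2 / m := by
      gcongr
      nlinarith
    have h2 : m * δ ^ 2 / 2 + 2 * w ^ 2 * (m - m') ^ 2 / m + 2 * δ * w * (m - m') =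
        (m * δ + 2 * w * (m - m')) ^ 2 / (2 * m) := by field_simp; ring
    have h3 : 0 ≤ (m * δ + 2 * w * (m - m')) ^ 2 / (2 * m) := by positivity
    linarith
  have i8 : 0 ≤ m * S ^ 2 := by positivity
  linarith

lemma exp_small : Real.exp (1 / 64) ≤ 5 / 4 := by
  have := Real.exp_bound_div_one_sub_of_interval' (x := 1 / 64) (by norm_num) (by norm_num)
  linarith

lemma abs_exp_sub_exp_le {s t c : ℝ} (hs : s ≤ c) (ht : t ≤ c) :
    |Real.exp s - Real.exp t| ≤ Real.exp c * |s - t| := by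
  have key : ∀ s t : ℝ, s ≤ c → Real.exp s - Real.exp t ≤ Real.exp c * |s - t| := by
    intro s t hs
    have h1 : Real.exp s * (t - s + 1) ≤ Real.exp t := by
      have := mul_le_mul_of_nonneg_left (Real.add_one_le_exp (t - s)) (Real.exp_pos s).le
      rwa [← Real.exp_add, add_sub_cancel] at this
    have h2 : Real.exp s * (s - t) ≤ Real.exp c * |s - t| :=
      (mul_le_mul_of_nonneg_left (le_abs_self _) (Real.exp_pos s).le).trans
        (mul_le_mul_of_nonneg_right (Real.exp_le_exp.2 hs) (abs_nonneg _))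
    linarith
  rw [abs_le]
  have := key t s ht
  rw [abs_sub_comm] at this
  exact ⟨by linarith, key s t hs⟩

theorem cell_ineq {R : ℝ} (hR : 0 < R) {L L' M : Set (Euc d)} (hL : MeasurableSet L)
    (hL' : MeasurableSet L') (hM : MeasurableSet M) (hLR : L ⊆ Metric.closedBall 0 R)
    (hL'R : L' ⊆ Metric.closedBall 0 R) (hMR : M ⊆ Metric.closedBall 0 R)
    (hmid : ∀ x ∈ L, ∀ x' ∈ L', (1 / 2 : ℝ) • x + (1 / 2 : ℝ) • x' ∈ M)
    (hm : 0 < volume.real L) (hm1 : 2 / 3 * volume.real L ≤ volume.real L')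
    (hm2 : volume.real L' ≤ 2 * volume.real L) (v : Euc d) :
    (∫ x in L, ⟪x, v⟫) - ∫ x in L', ⟪x, v⟫ ≤
      2 * (∫ x in M, gw (1 / (32 * R ^ 2)) x) - (∫ x in L, gw (1 / (32 * R ^ 2)) x) -
        (∫ x in L', gw (1 / (32 * R ^ 2)) x) + 525 * volume.real L * (R * ‖v‖) ^ 2 +
        8 * (volume.real L - volume.real L') ^ 2 / volume.real L := by
  set l : ℝ := 1 / (32 * R ^ 2) with hl
  have hl0 : 0 < l := by positivity
  have hlR : l * R ^ 2 = 1 / 32 := by rw [hl]; field_simp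
  have cg := continuous_gw (d := d) l
  have hexp : ∀ x ∈ Metric.closedBall (0 : Euc d) R, l * ‖x‖ ^ 2 / 2 ≤ 1 / 64 := by
    intro x hx
    have h1 : ‖x‖ ≤ R := by simpa using hx
    have : l * ‖x‖ ^ 2 ≤ l * R ^ 2 := by gcongr
    linarith
  have hfin : ∀ S : Set (Euc d), S ⊆ Metric.closedBall 0 R → volume S ≠ ∞ := fun S hS =>
    ne_top_of_le_ne_top (isCompact_closedBall (0 : Euc d) R).measure_lt_top.ne (measure_mono hS)
  have hup : ∀ S : Set (Euc d), S ⊆ Metric.closedBall 0 R → ∫ x in S, gw l x ≤ volume.real S := by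
    intro S hS
    have := integral_mono (integrableOn_of_subset_ball hS cg)
      (integrableOn_of_subset_ball hS (continuous_const (y := (1 : ℝ))))
      (fun x => Real.exp_le_one_iff.2 (by simp; positivity))
    simpa using this
  have hlow : ∀ S : Set (Euc d), MeasurableSet S → S ⊆ Metric.closedBall 0 R →
      4 / 5 * volume.real S ≤ ∫ x in S, gw l x := by
    intro S hSm hS
    have := setIntegral_mono_on (integrableOn_of_subset_ball hS (continuous_const (y := (4 / 5 : ℝ))))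
      (integrableOn_of_subset_ball hS cg) hSm (fun x hx => by
        have h1 := (Real.exp_le_exp.2 (hexp x (hS hx))).trans exp_small
        rw [gw, Real.exp_neg, le_inv_comm₀ (by norm_num) (Real.exp_pos _)]
        linarith)
    simpa [mul_comm] using this
  have hbeta : ∀ S : Set (Euc d), MeasurableSet S → S ⊆ Metric.closedBall 0 R →
      |∫ x in S, ⟪x, v⟫| ≤ R * ‖v‖ * volume.real S := by
    intro S hSm hS
    rw [← Real.norm_eq_abs]
    refine norm_setIntegral_le_of_norm_le_const (hfin S hS).lt_top fun x hx => ?_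
    refine (norm_inner_le_norm _ _).trans ?_
    have h1 : ‖x‖ ≤ R := by simpa using hS hx
    gcongr
  have hγ0 : 0 < ∫ x in L, gw l x := lt_of_lt_of_le (by positivity) (hlow L hL hLR)
  set γ := ∫ x in L, gw l x with hγ
  set γ' := ∫ x in L', gw l x with hγ'
  have b1 := hup L hLR
  have b2 := hup L' hL'R
  have b3 := hlow L hL hLR
  have b4 := hlow L' hL' hL'R
  set r := Real.sqrt (γ' / γ) with hr
  have hγ'0 : 0 < γ' := by linarith
  have hr2 : γ' = r ^ 2 * γ := by rw [hr, Real.sq_sqrt (by positivity)]; field_simp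
  have hr1 : 1 / 2 ≤ r := by
    refine Real.le_sqrt_of_sq_le ?_
    rw [le_div_iff₀ hγ0]; linarith
  have hr3 : r ≤ 2 := by
    refine Real.sqrt_le_iff.2 ⟨by norm_num, ?_⟩
    rw [div_le_iff₀ hγ0]; linarith
  set c := 2 * (r - 1) with hc
  set a : Euc d → ℝ := fun x => (⟪x, v⟫ + c) * Real.exp (l * ‖x‖ ^ 2 / 2) with ha
  have hqa : ∀ x, gw l x * a x = ⟪x, v⟫ + c := by
    intro x
    rw [gw, ha, Real.exp_neg]; field_simp
  set ℓ : ℝ := 2 * ‖v‖ + 5 / 4 * |c| * (l * R) with hℓ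
  have hlip : ∀ x ∈ L, ∀ x' ∈ L', a x - a x' ≤ ℓ * ‖x - x'‖ := by
    intro x hx x' hx'
    have n1 : ‖x‖ ≤ R := by simpa using hLR hx
    have n2 : ‖x'‖ ≤ R := by simpa using hL'R hx'
    have e1 := (Real.exp_le_exp.2 (hexp x (hLR hx))).trans exp_small
    have e2 := abs_exp_sub_exp_le (hexp x (hLR hx)) (hexp x' (hL'R hx'))
    have e3 : |l * ‖x‖ ^ 2 / 2 - l * ‖x'‖ ^ 2 / 2| ≤ l * R * ‖x - x'‖ := by
      have : l * ‖x‖ ^ 2 / 2 - l * ‖x'‖ ^ 2 / 2 = l * ((‖x‖ + ‖x'‖) / 2) * (‖x‖ - ‖x'‖) := by ring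
      rw [this, abs_mul, abs_of_nonneg (by positivity)]
      exact mul_le_mul (by gcongr; linarith) (abs_norm_sub_norm_le x x') (abs_nonneg _)
        (by positivity)
    have e4 : |Real.exp (l * ‖x‖ ^ 2 / 2) - Real.exp (l * ‖x'‖ ^ 2 / 2)| ≤
        5 / 4 * (l * R * ‖x - x'‖) :=
      e2.trans (mul_le_mul exp_small e3 (abs_nonneg _) (by norm_num))
    have e5 : a x - a x' = ⟪x - x', v⟫ * Real.exp (l * ‖x‖ ^ 2 / 2) +
        (⟪x', v⟫ + c) * (Real.exp (l * ‖x‖ ^ 2 / 2) - Real.exp (l * ‖x'‖ ^ 2 / 2)) := by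
      simp only [ha, inner_sub_left]; ring
    have e6 : ⟪x - x', v⟫ * Real.exp (l * ‖x‖ ^ 2 / 2) ≤ ‖x - x'‖ * ‖v‖ * (5 / 4) :=
      mul_le_mul (real_inner_le_norm _ _) e1 (Real.exp_pos _).le (by positivity)
    have e7 : |⟪x', v⟫ + c| ≤ R * ‖v‖ + |c| :=
      (abs_add_le _ _).trans (by
        have := abs_real_inner_le_norm x' v
        have : ‖x'‖ * ‖v‖ ≤ R * ‖v‖ := by gcongr
        linarith)
    have e8 : (⟪x', v⟫ + c) * (Real.exp (l * ‖x‖ ^ 2 / 2) - Real.exp (l * ‖x'‖ ^ 2 / 2)) ≤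
        (R * ‖v‖ + |c|) * (5 / 4 * (l * R * ‖x - x'‖)) := by
      refine (le_abs_self _).trans ?_
      rw [abs_mul]
      exact mul_le_mul e7 e4 (abs_nonneg _) (by positivity)
    have e9 : (R * ‖v‖ + |c|) * (5 / 4 * (l * R * ‖x - x'‖)) =
        5 / 4 * (l * R ^ 2) * (‖x - x'‖ * ‖v‖) + 5 / 4 * |c| * (l * R) * ‖x - x'‖ := by ring
    have e10 : 0 ≤ ‖x - x'‖ * ‖v‖ := by positivity
    rw [e5, hℓ]
    rw [e9, hlR] at e8
    linarith
  have hG := gauss_PL hl0 hL hL' hM hLR hL'R hMR hmid (a := a) (by fun_prop) hlip hγ0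
    (r := r) (by linarith) hr2
  simp only [hqa] at hG
  rw [integral_add (integrableOn_of_subset_ball hLR (by fun_prop))
      (integrableOn_of_subset_ball hLR continuous_const),
    integral_add (integrableOn_of_subset_ball hL'R (by fun_prop))
      (integrableOn_of_subset_ball hL'R continuous_const), setIntegral_const, setIntegral_const,
    smul_eq_mul, smul_eq_mul, mul_comm _ c, mul_comm _ c] at hG
  refine cell_arith hm hm2 hγ0 b1 hr1 hr3 hr2 (hbeta L hL hLR) (hbeta L' hL' hL'R) (by positivity)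
    ?_ hG
  have f1 : ℓ ^ 2 ≤ 8 * ‖v‖ ^ 2 + 25 / 8 * c ^ 2 * (l * R) ^ 2 := by
    rw [hℓ, ← sq_abs c]
    nlinarith [sq_nonneg (2 * ‖v‖ - 5 / 4 * |c| * (l * R))]
  rw [div_le_iff₀ (by positivity)]
  refine f1.trans ?_
  have f2 : (128 * (R * ‖v‖) ^ 2 + (r - 1) ^ 2 / 4) * (2 * l) =
      256 * (l * R ^ 2) * ‖v‖ ^ 2 + l * (r - 1) ^ 2 / 2 := by ring
  have f3 : 25 / 8 * c ^ 2 * (l * R) ^ 2 = 25 / 2 * (l * R ^ 2) * (l * (r - 1) ^ 2) := by
    rw [hc]; ring
  have f4 : 0 ≤ l * (r - 1) ^ 2 := by positivity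
  rw [f2, f3, hlR]
  linarith

end Crest.Agent.R82
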