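import Crest.Agent.R82.Bary
import Crest.Prelude.Def_QuadraticTransport

/-! Cyclical monotonicity of optimal maps and the Rockafellar potential. -/

set_option autoImplicit false

namespace Crest.Agent.R82

open MeasureTheory Set Filter Crest.AnalysisR.OT
open scoped RealInnerProductSpace Topology ENNReal

variable {d : ℕ}

lemma integrable_of_ae_bdd {ν : Measure (Euc d)} [IsFiniteMeasure ν] {F : Type*}
    [NormedAddCommGroup F] {f : Euc d → F} (hf : AEStronglyMeasurable f ν) (C : ℝ)
    (h : ∀ᵐ x ∂ν, ‖f x‖ ≤ C) : Integrable f ν :=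
  Integrable.mono' (integrable_const C) hf h

lemma lintegral_enorm_sq_eq {X : Type*} [MeasurableSpace X] {ν : Measure X} {f : X → Euc d}
    (hf : Integrable (fun x => ‖f x‖ ^ 2) ν) :
    ∫⁻ x, ‖f x‖ₑ ^ 2 ∂ν = ENNReal.ofReal (∫ x, ‖f x‖ ^ 2 ∂ν) := by
  rw [ofReal_integral_eq_lintegral_ofReal hf (Eventually.of_forall fun x => by positivity)]
  refine lintegral_congr fun x => ?_
  rw [ENNReal.ofReal_pow (norm_nonneg _), ofReal_norm]

lemma swap_ineq {R : ℝ} {K : Set (Euc d)} (hK : MeasurableSet K)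
    (hKR : K ⊆ Metric.closedBall 0 R) (hK0 : volume K ≠ 0) {μ : Measure (Euc d)}
    {T : Euc d → Euc d} (hT : IsOptimalMap (uniformProbOn K) μ T) (hTR : ∀ x, ‖T x‖ ≤ R)
    {τ : Euc d → Euc d} (hτ : MeasurePreserving τ (volume.restrict K) (volume.restrict K)) :
    ∫ x in K, ⟪x - τ x, T (τ x)⟫ ≤ 0 := by
  have := isFiniteMeasure_restrict' hKR
  have hKt := volume_ne_top_of_subset hKR
  have hTm := hT.1
  have hτm := hτ.measurable
  have h1 := hT.2.2 (T ∘ τ) (hTm.comp hτm) (by
    rw [← Measure.map_map hTm hτm, ← hT.2.1]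
    congr 1
    exact (hτ.smul_measure _).map_eq)
  have hx := ae_norm_le_restrict hK hKR
  have hτx : ∀ᵐ x ∂volume.restrict K, ‖τ x‖ ≤ R := hτ.quasiMeasurePreserving.ae hx
  have i1 : Integrable (fun x => ‖x - T x‖ ^ 2) (volume.restrict K) :=
    integrable_of_ae_bdd (Measurable.aestronglyMeasurable (by fun_prop)) ((R + R) ^ 2) (by
      filter_upwards [hx] with x hx
      rw [Real.norm_eq_abs, abs_of_nonneg (by positivity)]
      exact pow_le_pow_left₀ (norm_nonneg _) ((norm_sub_le _ _).trans (add_le_add hx (hTR x))) 2)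
  have i2 : Integrable (fun x => ‖x - T (τ x)‖ ^ 2) (volume.restrict K) :=
    integrable_of_ae_bdd (Measurable.aestronglyMeasurable (by fun_prop)) ((R + R) ^ 2) (by
      filter_upwards [hx] with x hx
      rw [Real.norm_eq_abs, abs_of_nonneg (by positivity)]
      exact pow_le_pow_left₀ (norm_nonneg _) ((norm_sub_le _ _).trans (add_le_add hx (hTR _))) 2)
  have i3 : Integrable (fun x : Euc d => ‖x‖ ^ 2) (volume.restrict K) :=
    integrableOn_of_subset_ball hKR (by fun_prop)
  have i4 := hτ.integrable_comp_of_integrable i1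
  have i5 := hτ.integrable_comp_of_integrable i3
  simp only [uniformProbOn, lintegral_smul_measure, smul_eq_mul, Function.comp] at h1
  rw [ENNReal.mul_le_mul_iff_right (ENNReal.inv_ne_zero.2 hKt) (ENNReal.inv_ne_top.2 hK0),
    lintegral_enorm_sq_eq i1, lintegral_enorm_sq_eq i2,
    ENNReal.ofReal_le_ofReal_iff (integral_nonneg fun x => by positivity)] at h1
  have e1 : ∫ x in K, ‖τ x - T (τ x)‖ ^ 2 = ∫ x in K, ‖x - T x‖ ^ 2 := by
    conv_rhs => rw [← hτ.map_eq]
    rw [integral_map hτ.aemeasurable (Measurable.aestronglyMeasurable (by fun_prop))]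
  have e2 : ∫ x in K, ‖τ x‖ ^ 2 = ∫ x in K, ‖x‖ ^ 2 := by
    conv_rhs => rw [← hτ.map_eq]
    rw [integral_map hτ.aemeasurable (Measurable.aestronglyMeasurable (by fun_prop))]
  have e3 : ∀ x, ⟪x - τ x, T (τ x)⟫ =
      (1 / 2) * ((‖x‖ ^ 2 - ‖τ x‖ ^ 2) - (‖x - T (τ x)‖ ^ 2 - ‖τ x - T (τ x)‖ ^ 2)) := by
    intro x
    rw [norm_sub_sq_real, norm_sub_sq_real, inner_sub_left]; ring
  simp only [e3]
  simp only [Function.comp_def] at i4 i5
  rw [integral_const_mul, integral_sub (f := fun x => ‖x‖ ^ 2 - ‖τ x‖ ^ 2)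
    (g := fun x => ‖x - T (τ x)‖ ^ 2 - ‖τ x - T (τ x)‖ ^ 2) (i3.sub i5) (i2.sub i4),
    integral_sub i3 i5,
    integral_sub i2 i4, e1, e2]
  linarith

section swap

variable {ι : Type*} [Fintype ι]

/-- The piecewise translation permuting a family of balls. -/
noncomputable def swapMap (c : ι → Euc d) (r : ℝ) (σ : Equiv.Perm ι) (x : Euc d) : Euc d :=
  x + ∑ i, (Metric.closedBall (c i) r).indicator (fun _ => c (σ i) - c i) x

lemma measurable_swapMap (c : ι → Euc d) (r : ℝ) (σ : Equiv.Perm ι) :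
    Measurable (swapMap c r σ) :=
  measurable_id.add (Finset.measurable_sum _ fun _ _ =>
    measurable_const.indicator measurableSet_closedBall)

lemma swapMap_of_mem {c : ι → Euc d} {r : ℝ} (σ : Equiv.Perm ι)
    (hd : Pairwise (Function.onFun Disjoint fun i => Metric.closedBall (c i) r)) {i : ι}
    {x : Euc d} (hx : x ∈ Metric.closedBall (c i) r) : swapMap c r σ x = x + (c (σ i) - c i) := by
  rw [swapMap, Finset.sum_eq_single i (fun j _ hj => indicator_of_notMem
    (fun h => Set.disjoint_left.1 (hd hj) h hx) _) (by simp), indicator_of_mem hx]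

lemma swapMap_of_notMem {c : ι → Euc d} {r : ℝ} (σ : Equiv.Perm ι)
    {x : Euc d} (hx : x ∉ ⋃ i, Metric.closedBall (c i) r) : swapMap c r σ x = x := by
  rw [swapMap, Finset.sum_eq_zero (fun j _ => indicator_of_notMem
    (fun h => hx (mem_iUnion.2 ⟨j, h⟩)) _), add_zero]

lemma measurePreserving_translate_ball (a b : Euc d) (r : ℝ) :
    MeasurePreserving (fun x => x + (b - a)) (volume.restrict (Metric.closedBall a r))
      (volume.restrict (Metric.closedBall b r)) := by
  have h := (measurePreserving_add_right (volume : Measure (Euc d)) (b - a)).restrict_preimage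
    (s := Metric.closedBall b r) measurableSet_closedBall
  convert h using 2
  ext x
  simp only [Metric.mem_closedBall, mem_preimage, dist_eq_norm]
  rw [show x + (b - a) - b = x - a by abel]

lemma restrict_decomp {K : Set (Euc d)} {c : ι → Euc d} {r : ℝ}
    (hd : Pairwise (Function.onFun Disjoint fun i => Metric.closedBall (c i) r))
    (hsub : ∀ i, Metric.closedBall (c i) r ⊆ K) :
    volume.restrict K = ∑ i, volume.restrict (Metric.closedBall (c i) r) +
      volume.restrict (K \ ⋃ i, Metric.closedBall (c i) r) := by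
  have hU : MeasurableSet (⋃ i, Metric.closedBall (c i) r) :=
    MeasurableSet.iUnion fun _ => measurableSet_closedBall
  rw [← Measure.restrict_inter_add_sdiff K hU, inter_eq_right.2 (iUnion_subset hsub),
    Measure.restrict_iUnion hd (fun _ => measurableSet_closedBall), Measure.sum_fintype]

lemma measurePreserving_swapMap {K : Set (Euc d)} (hK : MeasurableSet K) {c : ι → Euc d} {r : ℝ}
    (σ : Equiv.Perm ι)
    (hd : Pairwise (Function.onFun Disjoint fun i => Metric.closedBall (c i) r))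
    (hsub : ∀ i, Metric.closedBall (c i) r ⊆ K) :
    MeasurePreserving (swapMap c r σ) (volume.restrict K) (volume.restrict K) := by
  have hU : MeasurableSet (⋃ i, Metric.closedBall (c i) r) :=
    MeasurableSet.iUnion fun _ => measurableSet_closedBall
  have hm := measurable_swapMap c r σ
  rw [restrict_decomp hd hsub]
  refine MeasurePreserving.add_measure ⟨hm, ?_⟩ ?_
  · rw [← Measure.sum_fintype, Measure.map_sum hm.aemeasurable, Measure.sum_fintype,
      Measure.sum_fintype,
      ← Equiv.sum_comp σ (fun i => volume.restrict (Metric.closedBall (c i) r))]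
    refine Finset.sum_congr rfl fun i _ => ?_
    refine ((measurePreserving_translate_ball (c i) (c (σ i)) r).congr hm ?_).map_eq
    exact (ae_restrict_iff' measurableSet_closedBall).2
      (Eventually.of_forall fun x hx => (swapMap_of_mem σ hd hx).symm)
  · refine (MeasurePreserving.id _).congr hm ?_
    exact (ae_restrict_iff' (hK.diff hU)).2
      (Eventually.of_forall fun x hx => (swapMap_of_notMem σ hx.2).symm)

lemma swap_balls {R : ℝ} {K : Set (Euc d)} (hK : MeasurableSet K)
    (hKR : K ⊆ Metric.closedBall 0 R) (hK0 : volume K ≠ 0) {μ : Measure (Euc d)}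
    {T : Euc d → Euc d} (hT : IsOptimalMap (uniformProbOn K) μ T) (hTR : ∀ x, ‖T x‖ ≤ R)
    {c : ι → Euc d} {r : ℝ} (σ : Equiv.Perm ι)
    (hd : Pairwise (Function.onFun Disjoint fun i => Metric.closedBall (c i) r))
    (hsub : ∀ i, Metric.closedBall (c i) r ⊆ K) :
    ∑ i, ⟪c (σ i) - c i, ∫ x in Metric.closedBall (c i) r, T x⟫ ≤ 0 := by
  have := isFiniteMeasure_restrict' hKR
  have hU : MeasurableSet (⋃ i, Metric.closedBall (c i) r) :=
    MeasurableSet.iUnion fun _ => measurableSet_closedBall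
  have hτ := measurePreserving_swapMap hK σ.symm hd hsub
  have h1 := swap_ineq hK hKR hK0 hT hTR hτ
  have hTm := hT.1
  have hτm := hτ.measurable
  have hx := ae_norm_le_restrict hK hKR
  have hτx := hτ.quasiMeasurePreserving.ae hx
  have hi : IntegrableOn (fun x => ⟪x - swapMap c r σ.symm x, T (swapMap c r σ.symm x)⟫) K :=
    integrable_of_ae_bdd (Measurable.aestronglyMeasurable (by fun_prop)) ((R + R) * R) (by
      filter_upwards [hx, hτx] with x hx hx'
      exact (norm_inner_le_norm _ _).trans (mul_le_mul ((norm_sub_le _ _).trans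
        (add_le_add hx hx')) (hTR _) (norm_nonneg _) (by linarith [norm_nonneg x])))
  have hTi : IntegrableOn T K :=
    integrable_of_ae_bdd hTm.aestronglyMeasurable R (Eventually.of_forall hTR)
  rw [restrict_decomp hd hsub, integral_add_measure
    (integrable_finsetSum_measure.2 fun i _ => hi.mono_set (hsub i)) (hi.mono_set sdiff_subset),
    integral_finsetSum_measure fun i _ => hi.mono_set (hsub i),
    setIntegral_congr_fun (hK.diff hU) (g := fun _ => 0)
      (fun x hx => by simp [swapMap_of_notMem σ.symm hx.2]), integral_zero, add_zero,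
    ← Equiv.sum_comp σ] at h1
  refine le_of_eq_of_le (Finset.sum_congr rfl fun i _ => ?_) h1
  rw [setIntegral_congr_fun measurableSet_closedBall
    (g := fun x => ⟪c (σ i) - c i, T (x + (c i - c (σ i)))⟫)
    (fun x hx => by simp [swapMap_of_mem σ.symm hd hx]),
    ← integral_inner (hTi.mono_set (hsub i))]
  have hp := measurePreserving_translate_ball (c (σ i)) (c i) r
  conv_lhs => rw [← hp.map_eq]
  rw [integral_map hp.aemeasurable (Measurable.aestronglyMeasurable (by fun_prop))]

end swap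

/-- Lebesgue points (for off-centre balls). -/
def LebPt (T : Euc d → Euc d) (x : Euc d) : Prop :=
  ∀ (N : ℕ) (w : ℝ → Euc d), (∀ᶠ r in 𝓝[>] (0 : ℝ), x ∈ Metric.closedBall (w r) (N * r)) →
    Tendsto (fun r => ⨍ y in Metric.closedBall (w r) r, T y) (𝓝[>] 0) (𝓝 (T x))

lemma ae_lebPt {T : Euc d → Euc d} (hT : Measurable T) {R : ℝ} (hTR : ∀ x, ‖T x‖ ≤ R) :
    ∀ᵐ x, LebPt T x := by
  have hl : LocallyIntegrable T volume := by
    refine (locallyIntegrable_const R).mono hT.aestronglyMeasurable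
      (Eventually.of_forall fun x => (hTR x).trans (le_abs_self R))
  refine ae_all_iff.2 fun N => ?_
  filter_upwards [IsUnifLocDoublingMeasure.ae_tendsto_average volume hl N] with x hx w hw
  exact hx w id tendsto_id hw

theorem cyc_mono (hd : 0 < d) {R : ℝ} {K : Set (Euc d)} (hK : MeasurableSet K)
    (hKR : K ⊆ Metric.closedBall 0 R) (hK0 : volume K ≠ 0) {μ : Measure (Euc d)}
    {T : Euc d → Euc d} (hT : IsOptimalMap (uniformProbOn K) μ T) (hTR : ∀ x, ‖T x‖ ≤ R)
    {n : ℕ} (x : Fin n → Euc d) (hx : ∀ i, x i ∈ interior K) (hL : ∀ i, LebPt T (x i))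
    (σ : Equiv.Perm (Fin n)) : ∑ i, ⟪x (σ i) - x i, T (x i)⟫ ≤ 0 := by
  set e : Euc d := EuclideanSpace.single ⟨0, hd⟩ (1 : ℝ) with he
  have he1 : ‖e‖ = 1 := by simp [he]
  set c : ℝ → Fin n → Euc d := fun r i => x i + (3 * (i : ℕ) * r) • e with hc
  have hct : ∀ i, Tendsto (fun r => c r i) (𝓝[>] 0) (𝓝 (x i)) := by
    intro i
    have : Continuous fun r : ℝ => c r i := by simp only [hc]; fun_prop
    have h := this.tendsto 0
    simp only [hc, mul_zero, zero_smul, add_zero] at h
    exact h.mono_left nhdsWithin_le_nhds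
  have hid : Tendsto (fun r : ℝ => r) (𝓝[>] 0) (𝓝 0) := tendsto_id.mono_left nhdsWithin_le_nhds
  have hdis : ∀ᶠ r in 𝓝[>] (0 : ℝ),
      Pairwise (Function.onFun Disjoint fun i => Metric.closedBall (c r i) r) := by
    have : ∀ᶠ r in 𝓝[>] (0 : ℝ), ∀ i j, i ≠ j → r + r < dist (c r i) (c r j) := by
      refine eventually_all.2 fun i => eventually_all.2 fun j => ?_
      by_cases hij : x i = x j
      · filter_upwards [self_mem_nhdsWithin] with r hr hne
        have hr : 0 < r := hr
        have : c r i - c r j = (3 * r * (((i : ℕ) : ℝ) - (j : ℕ))) • e := by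
          simp only [hc, hij]
          rw [add_sub_add_left_eq_sub, ← sub_smul]; congr 1; ring
        rw [dist_eq_norm, this, norm_smul, he1, mul_one, Real.norm_eq_abs, abs_mul,
          abs_of_pos (by positivity)]
        have h1 : (1 : ℝ) ≤ |((i : ℕ) : ℝ) - (j : ℕ)| := by
          have : ((i : ℕ) : ℤ) - (j : ℕ) ≠ 0 := by
            intro h; exact hne (Fin.ext (by omega))
          have := Int.one_le_abs this
          exact_mod_cast this
        nlinarith
      · have h1 := (hid.add hid).eventually_lt ((hct i).dist (hct j))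
          (by rw [add_zero]; exact dist_pos.2 hij)
        filter_upwards [h1] with r hr _ using hr
    filter_upwards [this] with r hr i j hij
    exact Metric.closedBall_disjoint_closedBall (hr i j hij)
  have hsub : ∀ᶠ r in 𝓝[>] (0 : ℝ), ∀ i, Metric.closedBall (c r i) r ⊆ K := by
    refine eventually_all.2 fun i => ?_
    obtain ⟨ρ, hρ, hball⟩ := Metric.mem_nhds_iff.1 (mem_interior_iff_mem_nhds.1 (hx i))
    have h1 := (hid.add ((hct i).dist (tendsto_const_nhds (x := x i)))).eventually_lt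
      (tendsto_const_nhds (x := ρ)) (by simpa using hρ)
    filter_upwards [h1] with r hr
    exact (Metric.closedBall_subset_ball' hr).trans hball
  have hlim : Tendsto (fun r => ∑ i, ⟪c r (σ i) - c r i, ⨍ y in Metric.closedBall (c r i) r, T y⟫)
      (𝓝[>] 0) (𝓝 (∑ i, ⟪x (σ i) - x i, T (x i)⟫)) := by
    refine tendsto_finsetSum _ fun i _ => ((hct _).sub (hct _)).inner (hL i (3 * i) _ ?_)
    filter_upwards [self_mem_nhdsWithin] with r hr
    have hr : 0 < r := hr
    simp only [hc, Metric.mem_closedBall, dist_eq_norm, sub_add_cancel_left, norm_neg, norm_smul,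
      he1, mul_one, Real.norm_eq_abs]
    rw [abs_of_nonneg (by positivity)]
    push_cast; exact le_rfl
  refine le_of_tendsto hlim ?_
  filter_upwards [hdis, hsub] with r h1 h2
  have h3 := swap_balls hK hKR hK0 hT hTR σ h1 h2
  simp only [setAverage_eq, inner_smul_right, Measure.addHaar_real_closedBall_center,
    ← Finset.mul_sum]
  exact mul_nonpos_of_nonneg_of_nonpos (by positivity) h3

/-- Rockafellar's construction. -/
theorem exists_potential {G : Set (Euc d)} (hG : G.Nonempty) {T : Euc d → Euc d} {R : ℝ}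
    (hTR : ∀ x, ‖T x‖ ≤ R)
    (hcyc : ∀ (n : ℕ) (x : Fin n → Euc d), (∀ i, x i ∈ G) → ∀ σ : Equiv.Perm (Fin n),
      ∑ i, ⟪x (σ i) - x i, T (x i)⟫ ≤ 0) :
    ∃ φ : Euc d → ℝ, Continuous φ ∧ ∀ x ∈ G, ∀ z, φ x + ⟪z - x, T x⟫ ≤ φ z := by
  obtain ⟨x₀, hx₀⟩ := hG
  set ch : (ℕ → Euc d) → ℕ → ℝ := fun x n => ∑ k ∈ Finset.range n, ⟪x (k + 1) - x k, T (x k)⟫
    with hch
  set A : Set (Euc d × ℝ) := {q | ∃ (n : ℕ) (x : ℕ → Euc d), x 0 = x₀ ∧ (∀ k ≤ n, x k ∈ G) ∧
    q = (x n, ch x n)} with hA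
  have hA0 : (x₀, (0 : ℝ)) ∈ A := ⟨0, fun _ => x₀, rfl, fun _ _ => hx₀, by simp [hch]⟩
  have hAs : ∀ q ∈ A, ∀ x' ∈ G, (x', q.2 + ⟪x' - q.1, T q.1⟫) ∈ A := by
    rintro _ ⟨n, x, h0, hx, rfl⟩ x' hx'
    refine ⟨n + 1, Function.update x (n + 1) x', by simp [h0], fun k hk => ?_, ?_⟩
    · by_cases h : k = n + 1
      · subst h; simpa using hx'
      · rw [Function.update_of_ne h]; exact hx k (by omega)
    · simp only [hch, Function.update_self, Finset.sum_range_succ, Prod.mk.injEq, true_and]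
      rw [Function.update_of_ne (by omega)]
      congr 1
      refine Finset.sum_congr rfl fun k hk => ?_
      have := Finset.mem_range.1 hk
      rw [Function.update_of_ne (by omega), Function.update_of_ne (by omega)]
  have hAb : ∀ q ∈ A, q.2 + ⟪x₀ - q.1, T q.1⟫ ≤ 0 := by
    rintro _ ⟨n, x, h0, hx, rfl⟩
    have := hcyc (n + 1) (fun i => x i) (fun i => hx i (by omega)) (finRotate (n + 1))
    rw [Fin.sum_univ_castSucc, finRotate_last] at this
    simp only [Fin.val_zero, Fin.val_last, h0, Fin.val_castSucc] at this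
    refine le_of_eq_of_le ?_ this
    simp only [hch]
    congr 1
    rw [Finset.sum_range]
    refine Finset.sum_congr rfl fun i _ => ?_
    have : finRotate (n + 1) i.castSucc = ⟨i + 1, Nat.succ_lt_succ i.2⟩ := finRotate_of_lt i.2
    rw [this]
  have hlip : ∀ (q : Euc d × ℝ) (z z' : Euc d),
      q.2 + ⟪z - q.1, T q.1⟫ ≤ q.2 + ⟪z' - q.1, T q.1⟫ + R * ‖z - z'‖ := by
    intro q z z'
    have h1 := real_inner_le_norm (z - z') (T q.1)
    have h2 : ‖z - z'‖ * ‖T q.1‖ ≤ ‖z - z'‖ * R := by gcongr; exact hTR _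
    simp only [inner_sub_left] at h1 ⊢
    linarith
  have hbdd : ∀ z, BddAbove ((fun q : Euc d × ℝ => q.2 + ⟪z - q.1, T q.1⟫) '' A) := by
    intro z
    refine ⟨R * ‖z - x₀‖, ?_⟩
    rintro _ ⟨q, hq, rfl⟩
    linarith [hlip q z x₀, hAb q hq]
  set φ : Euc d → ℝ := fun z => sSup ((fun q : Euc d × ℝ => q.2 + ⟪z - q.1, T q.1⟫) '' A) with hφ
  have hle : ∀ q ∈ A, ∀ z, q.2 + ⟪z - q.1, T q.1⟫ ≤ φ z := fun q hq z =>
    le_csSup (hbdd z) ⟨q, hq, rfl⟩
  have hne : ∀ z, ((fun q : Euc d × ℝ => q.2 + ⟪z - q.1, T q.1⟫) '' A).Nonempty := fun z =>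
    ⟨_, _, hA0, rfl⟩
  refine ⟨φ, ?_, fun x hx z => ?_⟩
  · have hR : 0 ≤ R := (norm_nonneg _).trans (hTR 0)
    refine LipschitzWith.continuous (K := ⟨R, hR⟩) (LipschitzWith.of_le_add_mul _ fun z z' => ?_)
    refine csSup_le (hne z) ?_
    rintro _ ⟨q, hq, rfl⟩
    have := hlip q z z'
    have := hle q hq z'
    rw [dist_eq_norm]
    show _ ≤ φ z' + R * ‖z - z'‖
    linarith
  · rw [← le_sub_iff_add_le]
    refine csSup_le (hne x) ?_
    rintro _ ⟨q, hq, rfl⟩
    have := hle _ (hAs q hq x hx) z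
    simp only at this ⊢
    linarith

theorem exists_potential_of_optimal (hd : 0 < d) {R : ℝ} {K : Set (Euc d)} (hK : MeasurableSet K)
    (hKv : Convex ℝ K) (hKR : K ⊆ Metric.closedBall 0 R) (hK0 : volume K ≠ 0)
    {μ : Measure (Euc d)} {T : Euc d → Euc d} (hT : IsOptimalMap (uniformProbOn K) μ T)
    (hTR : ∀ x, ‖T x‖ ≤ R) :
    ∃ φ : Euc d → ℝ, Continuous φ ∧
      ∀ᵐ x ∂volume.restrict K, ∀ z, φ x + ⟪z - x, T x⟫ ≤ φ z := by
  have hG : ∀ᵐ x ∂volume.restrict K, x ∈ interior K ∧ LebPt T x := by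
    have h1 : ∀ᵐ x ∂(volume : Measure (Euc d)), x ∉ frontier K :=
      measure_eq_zero_iff_ae_notMem.1 (hKv.addHaar_frontier volume)
    filter_upwards [ae_restrict_of_ae h1, ae_restrict_of_ae (ae_lebPt hT.1 hTR),
      ae_restrict_mem hK] with x h1 h2 h3
    refine ⟨?_, h2⟩
    by_contra h
    exact h1 ⟨subset_closure h3, h⟩
  have : (ae (volume.restrict K)).NeBot := by
    rw [ae_neBot]
    intro h
    exact hK0 (by simpa using h)
  obtain ⟨φ, hφ, h⟩ := exists_potential (G := {x | x ∈ interior K ∧ LebPt T x}) hG.exists hTR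
    (fun n x hx σ => cyc_mono hd hK hKR hK0 hT hTR x (fun i => (hx i).1) (fun i => (hx i).2) σ)
  exact ⟨φ, hφ, hG.mono fun x hx => h x hx⟩

end Crest.Agent.R82
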