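import Crest.Agent.R82.Disc

/-! The directional estimate. -/

set_option autoImplicit false

namespace Crest.Agent.R82

open MeasureTheory Set Filter
open scoped RealInnerProductSpace Topology ENNReal

variable {d : ℕ}

/-- Points of `K` which stay in `K` after translation by `v`. -/
def shr (K : Set (Euc d)) (v : Euc d) : Set (Euc d) := {x | x ∈ K ∧ x + v ∈ K}

lemma shr_subset (K : Set (Euc d)) (v : Euc d) : shr K v ⊆ K := fun _ h => h.1

lemma measurableSet_shr {K : Set (Euc d)} (hK : MeasurableSet K) (v : Euc d) :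
    MeasurableSet (shr K v) := hK.inter (measurable_add_const v hK)

lemma volume_diff_shr {R : ℝ} {K : Set (Euc d)} (hK : MeasurableSet K) (hKv : Convex ℝ K)
    (hKR : K ⊆ Metric.closedBall 0 R) {x₀ : Euc d} {r : ℝ} (hr : 0 < r)
    (hball : Metric.closedBall x₀ r ⊆ K) (hd : 0 < d) (v : Euc d) :
    volume.real (K \ shr K v) ≤ d / r * volume.real K * ‖v‖ := by
  have hKt := volume_ne_top_of_subset hKR
  have hd' : (1 : ℝ) ≤ d := by exact_mod_cast hd
  have hV : 0 ≤ volume.real K := measureReal_nonneg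
  set t := ‖v‖ / r with ht
  have e0 : d / r * volume.real K * ‖v‖ = d * t * volume.real K := by rw [ht]; ring
  rw [e0]
  have ht0 : 0 ≤ t := by positivity
  by_cases ht1 : 1 ≤ t
  · refine (measureReal_mono sdiff_subset hKt).trans (le_mul_of_one_le_left hV ?_)
    nlinarith
  push Not at ht1
  have hsub : AffineMap.homothety x₀ (1 - t) '' K ⊆ shr K v := by
    rintro _ ⟨k, hk, rfl⟩
    have e1 : AffineMap.homothety x₀ (1 - t) k = (1 - t) • k + t • x₀ := by
      simp only [AffineMap.homothety_apply, vsub_eq_sub, vadd_eq_add, smul_sub, sub_smul, one_smul]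
      abel
    rw [e1]
    refine ⟨hKv hk (hball (Metric.mem_closedBall_self hr.le)) (by linarith) ht0 (by ring), ?_⟩
    rcases eq_or_ne v 0 with hv | hv
    · rw [hv, add_zero]
      exact hKv hk (hball (Metric.mem_closedBall_self hr.le)) (by linarith) ht0 (by ring)
    · have hv' : 0 < ‖v‖ := norm_pos_iff.2 hv
      have e2 : (1 - t) • k + t • x₀ + v = (1 - t) • k + t • (x₀ + t⁻¹ • v) := by
        rw [smul_add, smul_smul, mul_inv_cancel₀ (by positivity), one_smul, add_assoc]
      rw [e2]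
      refine hKv hk (hball ?_) (by linarith) ht0 (by ring)
      rw [Metric.mem_closedBall, dist_eq_norm, add_sub_cancel_left, norm_smul, norm_inv,
        Real.norm_eq_abs, abs_of_nonneg ht0, ht]
      field_simp
      rfl
  have h1 : (1 - t) ^ d * volume.real K ≤ volume.real (shr K v) := by
    refine le_trans (le_of_eq ?_) (measureReal_mono hsub
      (volume_ne_top_of_subset ((shr_subset K v).trans hKR)))
    rw [measureReal_def, measureReal_def, Measure.addHaar_image_homothety, ENNReal.toReal_mul,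
      ENNReal.toReal_ofReal (abs_nonneg _), finrank_euclideanSpace_fin,
      abs_of_nonneg (pow_nonneg (by linarith) _)]
  have h2 : 1 + d * (-t) ≤ (1 + -t) ^ d := one_add_mul_le_pow (by linarith) d
  rw [measureReal_sdiff (shr_subset K v) (measurableSet_shr hK v) hKt]
  have h3 := mul_le_mul_of_nonneg_right h2 hV
  rw [← sub_eq_add_neg] at h3
  linarith

lemma measurePreserving_shr {K : Set (Euc d)} (hK : MeasurableSet K) (v : Euc d) :
    MeasurePreserving (fun x => x + v) (volume.restrict (shr K v))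
      (volume.restrict (shr K (-v))) := by
  have h := (measurePreserving_add_right (volume : Measure (Euc d)) v).restrict_preimage
    (measurableSet_shr hK (-v))
  convert h using 2
  ext x
  simp [shr, and_comm]

lemma integral_shr {K : Set (Euc d)} (hK : MeasurableSet K) (v : Euc d) (f : Euc d → ℝ) :
    ∫ x in shr K v, f (x + v) = ∫ x in shr K (-v), f x :=
  (measurePreserving_shr hK v).integral_comp (measurableEmbedding_addRight v) f

lemma ae_shr {K : Set (Euc d)} (hK : MeasurableSet K) (v : Euc d) {P : Euc d → Prop}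
    (h : ∀ᵐ x ∂volume.restrict K, P x) : ∀ᵐ x ∂volume.restrict (shr K v), P x ∧ P (x + v) :=
  (ae_restrict_of_ae_restrict_of_subset (shr_subset K v) h).and
    ((measurePreserving_shr hK v).quasiMeasurePreserving.ae
      (ae_restrict_of_ae_restrict_of_subset (shr_subset K (-v)) h))

lemma integral_le_shr {R : ℝ} {K : Set (Euc d)} (hK : MeasurableSet K)
    (hKR : K ⊆ Metric.closedBall 0 R) (v : Euc d) {u : Euc d → ℝ} (hu : Measurable u) {C ω : ℝ}
    (hC : ∀ x, |u x| ≤ C) (hω : volume.real (K \ shr K v) ≤ ω) :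
    |(∫ x in K, u x) - ∫ x in shr K v, u x| ≤ C * ω := by
  rw [← setIntegral_sdiff (measurableSet_shr hK v) (integrableOn_of_bdd hKR hK hu C fun x _ => hC x)
    (shr_subset K v), ← Real.norm_eq_abs]
  refine (norm_setIntegral_le_of_norm_le_const
    (volume_ne_top_of_subset (sdiff_subset.trans hKR)).lt_top fun x _ => hC x).trans ?_
  exact mul_le_mul_of_nonneg_left hω ((abs_nonneg _).trans (hC 0))

lemma integral_incr_le {R : ℝ} {K : Set (Euc d)} (hK : MeasurableSet K)
    (hKR : K ⊆ Metric.closedBall 0 R) (v : Euc d) {u : Euc d → ℝ} (hu : Measurable u) {C ω : ℝ}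
    (hC : ∀ x, |u x| ≤ C) (hω : volume.real (K \ shr K v) ≤ ω)
    (hω' : volume.real (K \ shr K (-v)) ≤ ω) :
    ∫ x in shr K v, (u (x + v) - u x) ≤ 2 * C * ω := by
  have hs := (shr_subset K v).trans hKR
  rw [integral_sub (integrableOn_of_bdd hs (measurableSet_shr hK v) (by fun_prop) C fun x _ => hC _)
    (integrableOn_of_bdd hs (measurableSet_shr hK v) hu C fun x _ => hC _), integral_shr hK v u]
  have h1 := abs_le.1 (integral_le_shr hK hKR v hu hC hω)
  have h2 := abs_le.1 (integral_le_shr hK hKR (-v) hu hC hω')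
  linarith

lemma integral_pert_sq_le {R : ℝ} {K : Set (Euc d)} (hK : MeasurableSet K)
    (hKR : K ⊆ Metric.closedBall 0 R) (v : Euc d) {b : Euc d → ℝ} (hb : Measurable b)
    (hb0 : ∀ x, 0 ≤ b x) (hb1 : ∀ x, b x ≤ 1) {ω : ℝ} (hω : volume.real (K \ shr K v) ≤ ω)
    (hω' : volume.real (K \ shr K (-v)) ≤ ω) :
    ∫ x in K, (pert ((shr K v).indicator b) v x - 1) ^ 2 ≤
      (∫ x in shr K v, |b (x + v) - b x|) + 2 * ω := by
  have m1 := measurableSet_shr hK v
  have m2 := measurableSet_shr hK (-v)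
  have hbb : ∀ x y, |b x - b y| ≤ 1 := fun x y =>
    abs_le.2 ⟨by linarith [hb0 x, hb1 y], by linarith [hb1 x, hb0 y]⟩
  have ha0 : ∀ x, 0 ≤ (shr K v).indicator b x := fun x => indicator_nonneg (fun y _ => hb0 y) x
  have ha1 : ∀ x, (shr K v).indicator b x ≤ 1 := fun x => by
    by_cases h : x ∈ shr K v
    · rw [indicator_of_mem h]; exact hb1 x
    · rw [indicator_of_notMem h]; exact zero_le_one
  have hai : Measurable ((shr K v).indicator b) := hb.indicator m1
  have hsq : ∀ x, (pert ((shr K v).indicator b) v x - 1) ^ 2 ≤ 1 := fun x => by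
    unfold pert; nlinarith [ha0 x, ha1 x, ha0 (x - v), ha1 (x - v)]
  have i0 : IntegrableOn (fun x => (pert ((shr K v).indicator b) v x - 1) ^ 2) K :=
    integrableOn_of_bdd hKR hK (by unfold pert; fun_prop) 1 fun x _ => by
      rw [abs_of_nonneg (sq_nonneg _)]; exact hsq x
  have i1 : IntegrableOn ((shr K (-v)).indicator fun x => |b x - b (x - v)|) K :=
    (integrableOn_of_bdd hKR hK (by fun_prop) 1 fun x _ => by
      rw [abs_abs]; exact hbb _ _).indicator m2
  have i2 : ∀ w, IntegrableOn ((K \ shr K w).indicator fun _ => (1 : ℝ)) K := fun w =>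
    (integrableOn_of_subset_ball hKR continuous_const).indicator (hK.diff (measurableSet_shr hK w))
  have h1 := setIntegral_mono_on i0 ((i1.add (i2 v)).add (i2 (-v))) hK (fun x hx => by
    simp only [Pi.add_apply]
    have p1 : 0 ≤ (shr K (-v)).indicator (fun x => |b x - b (x - v)|) x :=
      indicator_nonneg (fun y _ => abs_nonneg _) x
    have p2 : ∀ w, 0 ≤ (K \ shr K w).indicator (fun _ => (1 : ℝ)) x := fun w =>
      indicator_nonneg (fun y _ => zero_le_one) x
    by_cases h1 : x ∈ shr K v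
    · by_cases h2 : x ∈ shr K (-v)
      · have h3 : x - v ∈ shr K v := ⟨by simpa [sub_eq_add_neg] using h2.2, by simpa using hx⟩
        rw [indicator_of_mem h2]
        unfold pert
        rw [indicator_of_mem h1, indicator_of_mem h3]
        have h4 := hbb x (x - v)
        have h5 := abs_nonneg (b x - b (x - v))
        have h6 : (1 - b x / 2 + b (x - v) / 2 - 1) ^ 2 = |b x - b (x - v)| ^ 2 / 4 := by
          rw [sq_abs]; ring
        nlinarith [p2 v, p2 (-v)]
      · rw [indicator_of_mem (show x ∈ K \ shr K (-v) from ⟨hx, h2⟩)]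
        linarith [hsq x, p2 v]
    · rw [indicator_of_mem (show x ∈ K \ shr K v from ⟨hx, h1⟩)]
      linarith [hsq x, p2 (-v)])
  simp only [Pi.add_apply] at h1
  rw [integral_add (f := fun x => (shr K (-v)).indicator (fun x => |b x - b (x - v)|) x +
      (K \ shr K v).indicator (fun _ => (1 : ℝ)) x) (i1.add (i2 v)) (i2 (-v)),
    integral_add i1 (i2 v), setIntegral_indicator m2, setIntegral_indicator (hK.diff m1),
    setIntegral_indicator (hK.diff m2), inter_eq_right.2 (shr_subset _ _),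
    inter_eq_right.2 sdiff_subset, inter_eq_right.2 sdiff_subset, ← integral_shr hK v] at h1
  simp only [add_sub_cancel_right, setIntegral_const, smul_eq_mul, mul_one] at h1
  linarith

theorem direction_est (hd : 0 < d) {R : ℝ} (hR : 0 < R) {K : Set (Euc d)} (hK : IsCompact K)
    (hKv : Convex ℝ K) (hKR : K ⊆ Metric.closedBall 0 R) (hV : 0 < volume.real K)
    {x₀ : Euc d} {r : ℝ} (hr : 0 < r) (hball : Metric.closedBall x₀ r ⊆ K)
    {T₀ T₁ : Euc d → Euc d} (hT₀ : Measurable T₀) (hT₁ : Measurable T₁)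
    (hT₀R : ∀ x, ‖T₀ x‖ ≤ R) (hT₁R : ∀ x, ‖T₁ x‖ ≤ R) {φ₀ φ₁ : Euc d → ℝ} (hφ₀ : Continuous φ₀)
    (hφ₁ : Continuous φ₁)
    (hs₀ : ∀ᵐ x ∂volume.restrict K, ∀ z, φ₀ x + ⟪z - x, T₀ x⟫ ≤ φ₀ z)
    (hs₁ : ∀ᵐ x ∂volume.restrict K, ∀ z, φ₁ x + ⟪z - x, T₁ x⟫ ≤ φ₁ z)
    (π : Measure (Euc d × Euc d)) [IsProbabilityMeasure π]
    (hπR : ∀ᵐ q ∂π, ‖q.1‖ ≤ R ∧ ‖q.2‖ ≤ R)
    (hπ₀ : ∀ g : Euc d → ℝ, Continuous g → ∫ x in K, g (T₀ x) = volume.real K * ∫ q, g q.1 ∂π)
    (hπ₁ : ∀ g : Euc d → ℝ, Continuous g → ∫ x in K, g (T₁ x) = volume.real K * ∫ q, g q.2 ∂π)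
    {e : Euc d} (he : ‖e‖ = 1) {h : ℝ} (hh : 0 < h) (hW : ∫ q, ‖q.1 - q.2‖ ^ 2 ∂π ≤ h ^ 3) :
    ∫ x in K, (max ⟪e, T₀ x - T₁ x⟫ 0) ^ 2 ≤
      ((8 * R ^ 2 + 272 * R) * (d / r) + 4208 * R ^ 3) * volume.real K * h := by
  have hKm := hK.measurableSet
  set V := volume.real K with hVd
  set v : Euc d := h • e with hv
  have hvn : ‖v‖ = h := by rw [hv, norm_smul, he, mul_one, Real.norm_eq_abs, abs_of_pos hh]
  set ω : ℝ := d / r * V * h with hω
  have hω1 : volume.real (K \ shr K v) ≤ ω := by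
    have := volume_diff_shr hKm hKv hKR hr hball hd v
    rwa [hvn] at this
  have hω2 : volume.real (K \ shr K (-v)) ≤ ω := by
    have := volume_diff_shr hKm hKv hKR hr hball hd (-v)
    rwa [norm_neg, hvn] at this
  have m1 := measurableSet_shr hKm v
  have hs := (shr_subset K v).trans hKR
  have hub : ∀ T : Euc d → Euc d, (∀ x, ‖T x‖ ≤ R) → ∀ x, |⟪e, T x⟫| ≤ R := fun T hT x =>
    (abs_real_inner_le_norm _ _).trans (by rw [he, one_mul]; exact hT x)
  have hmono : ∀ (T : Euc d → Euc d) (φ : Euc d → ℝ),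
      (∀ᵐ x ∂volume.restrict K, ∀ z, φ x + ⟪z - x, T x⟫ ≤ φ z) →
      ∀ᵐ x ∂volume.restrict (shr K v), ⟪e, T x⟫ ≤ ⟪e, T (x + v)⟫ ∧
        φ (x + v) - φ x ≤ h * ⟪e, T (x + v)⟫ := by
    intro T φ hφ
    filter_upwards [ae_shr hKm v hφ] with x hx
    have h1 := hx.1 (x + v)
    have h2 := hx.2 x
    rw [add_sub_cancel_left, hv, inner_smul_left, conj_trivial] at h1
    rw [sub_add_cancel_left, inner_neg_left, hv, inner_smul_left, conj_trivial] at h2
    rw [← hv] at h1 h2
    exact ⟨le_of_mul_le_mul_left (by linarith) hh, by linarith⟩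
  set u₀ : Euc d → ℝ := fun x => ⟪e, T₀ x⟫ with hu₀
  set u₁ : Euc d → ℝ := fun x => ⟪e, T₁ x⟫ with hu₁
  have mu₀ : Measurable u₀ := by simp only [hu₀]; fun_prop
  have mu₁ : Measurable u₁ := by simp only [hu₁]; fun_prop
  have bu₀ : ∀ x, |u₀ x| ≤ R := hub T₀ hT₀R
  have bu₁ : ∀ x, |u₁ x| ≤ R := hub T₁ hT₁R
  have D₀ := integral_incr_le hKm hKR v mu₀ bu₀ hω1 hω2
  have D₁ := integral_incr_le hKm hKR v mu₁ bu₁ hω1 hω2
  have iD : ∀ u : Euc d → ℝ, Measurable u → (∀ x, |u x| ≤ R) →
      IntegrableOn (fun x => u (x + v) - u x) (shr K v) := fun u hu hb =>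
    integrableOn_of_bdd hs m1 (by fun_prop) (R + R) fun x _ =>
      (abs_sub _ _).trans (add_le_add (hb _) (hb _))
  set P : Euc d → ℝ := fun x => max (u₀ x - u₁ x) 0 with hP
  have mP : Measurable P := by simp only [hP]; fun_prop
  have P0 : ∀ x, 0 ≤ P x := fun x => le_max_right _ _
  have P1 : ∀ x, P x ≤ 2 * R := fun x =>
    max_le (by linarith [abs_le.1 (bu₀ x), abs_le.1 (bu₁ x)]) (by linarith)
  set b : Euc d → ℝ := fun x => P x / (2 * R) with hb
  have mb : Measurable b := by simp only [hb]; fun_prop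
  have b0 : ∀ x, 0 ≤ b x := fun x => div_nonneg (P0 x) (by linarith)
  have b1 : ∀ x, b x ≤ 1 := fun x => (div_le_one (by linarith)).2 (P1 x)
  have hS : ∫ x in K, (pert ((shr K v).indicator b) v x - 1) ^ 2 ≤ 4 * ω := by
    refine (integral_pert_sq_le hKm hKR v mb b0 b1 hω1 hω2).trans ?_
    have h1 := integral_mono_ae (μ := volume.restrict (shr K v))
      (f := fun x => |b (x + v) - b x|)
      (integrableOn_of_bdd hs m1 (by fun_prop) 1 fun x _ => by
        rw [abs_abs]
        exact abs_le.2 ⟨by linarith [b0 (x + v), b1 x], by linarith [b1 (x + v), b0 x]⟩)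
      (((iD u₀ mu₀ bu₀).add (iD u₁ mu₁ bu₁)).div_const (2 * R)) (by
        filter_upwards [hmono T₀ φ₀ hs₀, hmono T₁ φ₁ hs₁] with x h0 h1
        simp only [Pi.add_apply, hb]
        rw [← sub_div, abs_div, abs_of_pos (show 0 < 2 * R by linarith)]
        refine div_le_div_of_nonneg_right ?_ (by linarith)
        refine (abs_max_sub_max_le_abs _ _ _).trans (abs_le.2 ⟨?_, ?_⟩)
        · have := h0.1; have := h1.1; simp only [hu₀, hu₁]; linarith
        · have := h0.1; have := h1.1; simp only [hu₀, hu₁]; linarith)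
    simp only [Pi.add_apply] at h1
    rw [integral_div, integral_add (iD u₀ mu₀ bu₀) (iD u₁ mu₁ bu₁)] at h1
    have h2 : ((∫ x in shr K v, (u₀ (x + v) - u₀ x)) + ∫ x in shr K v, (u₁ (x + v) - u₁ x)) /
        (2 * R) ≤ 2 * ω := by
      rw [div_le_iff₀ (by linarith)]; linarith
    linarith
  have hM := main_ineq hd hR hK hKv hKR hV hT₀ hT₁ hT₀R hT₁R hφ₀ hφ₁ hs₀ hs₁ π hπR hπ₀ hπ₁
    (a := (shr K v).indicator b) (mb.indicator m1)
    (fun x => indicator_nonneg (fun y _ => b0 y) x)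
    (fun x => by
      by_cases h : x ∈ shr K v
      · rw [indicator_of_mem h]; exact b1 x
      · rw [indicator_of_notMem h]; exact zero_le_one) (v := v)
    (fun x hx => by
      by_contra h
      exact hx (indicator_of_notMem (s := shr K v) h _)) (β := h⁻¹) (by positivity)
  have hind : ∀ f : Euc d → ℝ, ∫ x in K, (shr K v).indicator b x * f x =
      ∫ x in shr K v, b x * f x := by
    intro f
    simp only [← indicator_mul_left]
    rw [setIntegral_indicator m1, inter_eq_right.2 (shr_subset _ _)]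
  rw [hind, hind] at hM
  have iP : ∀ S : Set (Euc d), MeasurableSet S → S ⊆ Metric.closedBall 0 R →
      IntegrableOn (fun x => P x ^ 2) S := fun S hS hSR =>
    integrableOn_of_bdd hSR hS (by fun_prop) ((2 * R) ^ 2) fun x _ => by
      rw [abs_of_nonneg (sq_nonneg _)]; exact pow_le_pow_left₀ (P0 x) (P1 x) 2
  have i1 : IntegrableOn (fun x => b x * ⟪v, T₀ x⟫) (shr K v) :=
    integrableOn_mul_bdd m1 hs mb b0 b1
      (integrableOn_comp_bdd m1 hs hT₀ hT₀R (g := fun q => ⟪v, q.2⟫) (by fun_prop))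
  have i2 : IntegrableOn (fun x => b x * (φ₁ (x + v) - φ₁ x)) (shr K v) :=
    integrableOn_mul_bdd m1 hs mb b0 b1 (integrableOn_of_subset_ball hs (by fun_prop))
  have h3 := integral_mono_ae (μ := volume.restrict (shr K v))
    (((iP _ m1 hs).const_mul (h / (2 * R))).add i2)
    (i1.add ((iD u₁ mu₁ bu₁).const_mul h)) (by
      filter_upwards [hmono T₁ φ₁ hs₁] with x h1
      simp only [Pi.add_apply]
      have e1 : ⟪v, T₀ x⟫ = h * u₀ x := by rw [hv, inner_smul_left, conj_trivial]
      have e2 : h / (2 * R) * P x ^ 2 = h * (b x * (u₀ x - u₁ x)) := by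
        have : P x ^ 2 = P x * (u₀ x - u₁ x) := by
          simp only [hP]
          rcases le_total (u₀ x - u₁ x) 0 with h | h
          · rw [max_eq_right h]; ring
          · rw [max_eq_left h]; ring
        rw [this, hb]; ring
      have a1 := mul_le_mul_of_nonneg_left h1.2 (b0 x)
      have a2 : 0 ≤ u₁ (x + v) - u₁ x := sub_nonneg.2 h1.1
      have a3 := mul_le_mul_of_nonneg_left (mul_le_of_le_one_left a2 (b1 x)) hh.le
      rw [e1, e2]
      simp only [hu₁] at a3 ⊢
      linarith)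
  simp only [Pi.add_apply] at h3
  rw [integral_add ((iP _ m1 hs).const_mul _) i2, integral_add i1 ((iD u₁ mu₁ bu₁).const_mul h),
    integral_const_mul, integral_const_mul] at h3
  have h4 := (abs_le.1 (integral_le_shr hKm hKR v (u := fun x => P x ^ 2) (by fun_prop)
    (C := (2 * R) ^ 2) (fun x => by
      rw [abs_of_nonneg (sq_nonneg _)]; exact pow_le_pow_left₀ (P0 x) (P1 x) 2) hω1)).2
  have h5 : 526 * R ^ 2 * h⁻¹ * (V * (2 * ∫ q, ‖q.1 - q.2‖ ^ 2 ∂π)) ≤ 1052 * R ^ 2 * V * h ^ 2 := by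
    calc _ ≤ 526 * R ^ 2 * h⁻¹ * (V * (2 * h ^ 3)) := by gcongr
      _ = _ := by field_simp; ring
  have h6 : 17 / h⁻¹ * ∫ x in K, (pert ((shr K v).indicator b) v x - 1) ^ 2 ≤ 68 * h * ω := by
    calc _ ≤ 17 / h⁻¹ * (4 * ω) := by gcongr
      _ = _ := by field_simp; ring
  have h7 := mul_le_mul_of_nonneg_left D₁ hh.le
  have h8 : h / (2 * R) * ∫ x in shr K v, P x ^ 2 ≤
      h / (2 * R) * (2 * R * (2 * R * ω + 136 * ω + 2104 * R ^ 2 * V * h)) := by
    have : h / (2 * R) * (2 * R * (2 * R * ω + 136 * ω + 2104 * R ^ 2 * V * h)) =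
        h * (2 * R * ω) + 136 * h * ω + 2104 * R ^ 2 * V * h ^ 2 := by field_simp
    rw [this]
    linarith
  have h9 := le_of_mul_le_mul_left h8 (by positivity)
  have e3 : ∀ x, max ⟪e, T₀ x - T₁ x⟫ 0 = P x := fun x => by rw [inner_sub_right]
  simp only [e3]
  have e4 : ((8 * R ^ 2 + 272 * R) * (d / r) + 4208 * R ^ 3) * V * h =
      (8 * R ^ 2 + 272 * R) * ω + 4208 * R ^ 3 * V * h := by rw [hω]; ring
  rw [e4]
  linarith

end Crest.Agent.R82
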