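import Crest.Agent.R82.Interp
import Crest.Agent.R82.Cyc

/-! Discretisation of a coupling and the main perturbation inequality. -/

set_option autoImplicit false

namespace Crest.Agent.R82

open MeasureTheory Set Filter
open scoped RealInnerProductSpace Topology ENNReal

variable {d : ℕ}

/-- Legendre transform over `K`. -/
noncomputable def leg (K : Set (Euc d)) (φ : Euc d → ℝ) (u : Euc d) : ℝ :=
  sSup ((fun z => ⟪z, u⟫ - φ z) '' K)

lemma le_leg {K : Set (Euc d)} (hK : IsCompact K) {φ : Euc d → ℝ} (hφ : Continuous φ) (u : Euc d)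
    {z : Euc d} (hz : z ∈ K) : ⟪z, u⟫ - φ z ≤ leg K φ u :=
  le_csSup (hK.image (by fun_prop)).bddAbove ⟨z, hz, rfl⟩

lemma leg_le {K : Set (Euc d)} (hK : K.Nonempty) {φ : Euc d → ℝ} {u : Euc d} {c : ℝ}
    (h : ∀ z ∈ K, ⟪z, u⟫ - φ z ≤ c) : leg K φ u ≤ c :=
  csSup_le (hK.image _) (by rintro _ ⟨z, hz, rfl⟩; exact h z hz)

lemma leg_lip {K : Set (Euc d)} (hK : IsCompact K) (hne : K.Nonempty) {R : ℝ}
    (hKR : K ⊆ Metric.closedBall 0 R) {φ : Euc d → ℝ} (hφ : Continuous φ) (u u' : Euc d) :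
    leg K φ u ≤ leg K φ u' + R * ‖u - u'‖ := by
  refine leg_le hne fun z hz => ?_
  have h1 := le_leg hK hφ u' hz
  have h2 := real_inner_le_norm z (u - u')
  have h3 : ‖z‖ ≤ R := by simpa using hKR hz
  have h4 : ‖z‖ * ‖u - u'‖ ≤ R * ‖u - u'‖ := by gcongr
  rw [inner_sub_right] at h2
  linarith

lemma continuous_of_lip {R : ℝ} (hR : 0 ≤ R) {g : Euc d → ℝ}
    (hg : ∀ u u', g u ≤ g u' + R * ‖u - u'‖) : Continuous g :=
  LipschitzWith.continuous (K := ⟨R, hR⟩) (LipschitzWith.of_le_add_mul _ fun z z' => by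
    rw [dist_eq_norm]; exact hg z z')

theorem exists_discretization (π : Measure (Euc d × Euc d)) [IsProbabilityMeasure π] (R : ℝ)
    {ε : ℝ} (hε : 0 < ε) :
    ∃ (ι : Type) (_ : Fintype ι) (_ : Nonempty ι) (m : ι → ℝ) (w : ι → Euc d × Euc d)
      (κ : Euc d → Euc d), (∀ i, 0 < m i) ∧ (∀ y, ‖y‖ ≤ R → ‖κ y - y‖ ≤ ε) ∧
      ∀ f : Euc d × Euc d → ℝ, Integrable (fun q => f (κ q.1, κ q.2)) π ∧
        ∑ i, m i * f (w i) = ∫ q, f (κ q.1, κ q.2) ∂π := by
  classical
  set e := TopologicalSpace.denseSeq (Euc d) with he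
  obtain ⟨t, ht⟩ := (isCompact_closedBall (0 : Euc d) R).elim_finite_subcover
    (fun n => Metric.ball (e n) ε) (fun _ => Metric.isOpen_ball) (fun x _ => by
      obtain ⟨n, hn⟩ := Metric.denseRange_iff.1 (TopologicalSpace.denseRange_denseSeq (Euc d)) x ε hε
      exact mem_iUnion.2 ⟨n, hn⟩)
  set κ := SimpleFunc.nearestPt e (t.sup id) with hκ
  set κ₂ : SimpleFunc (Euc d × Euc d) (Euc d × Euc d) :=
    (κ.comp Prod.fst measurable_fst).pair (κ.comp Prod.snd measurable_snd) with hκ₂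
  have hκ₂a : ∀ q, κ₂ q = (κ q.1, κ q.2) := fun q => rfl
  set S := κ₂.range.filter fun w => π.real (κ₂ ⁻¹' {w}) ≠ 0 with hS
  have hsum : ∀ f : Euc d × Euc d → ℝ,
      ∑ i : S, π.real (κ₂ ⁻¹' {i.1}) * f i.1 = ∫ q, f (κ q.1, κ q.2) ∂π := by
    intro f
    have h1 : (fun q => f (κ q.1, κ q.2)) =
        fun q => ∑ w ∈ κ₂.range, (κ₂ ⁻¹' {w}).indicator (fun _ => f w) q := by
      funext q
      rw [Finset.sum_eq_single (κ₂ q) (fun w _ hw => indicator_of_notMem (fun h => hw h.symm) _)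
        (fun h => absurd (κ₂.mem_range_self q) h), indicator_of_mem (by simp)]
      rfl
    rw [h1, integral_finsetSum _ fun w _ =>
      (integrable_const _).indicator (κ₂.measurableSet_fiber w),
      Finset.sum_coe_sort S (fun w => π.real (κ₂ ⁻¹' {w}) * f w), hS,
      Finset.sum_filter_of_ne fun w _ h => left_ne_zero_of_mul h]
    refine Finset.sum_congr rfl fun w _ => ?_
    rw [integral_indicator_const _ (κ₂.measurableSet_fiber w), smul_eq_mul]
  have hne : Nonempty S := by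
    by_contra h
    rw [not_nonempty_iff] at h
    have := hsum fun _ => 1
    simp at this
  refine ⟨S, inferInstance, hne, fun i => π.real (κ₂ ⁻¹' {i.1}), fun i => i.1, κ,
    fun i => lt_of_le_of_ne measureReal_nonneg (Finset.mem_filter.1 i.2).2.symm,
    fun y hy => ?_, fun f => ⟨(κ₂.map f).integrable_of_isFiniteMeasure, hsum f⟩⟩
  obtain ⟨n, hn, hy⟩ := mem_iUnion₂.1 (ht (show y ∈ Metric.closedBall 0 R by simpa using hy))
  have h1 := SimpleFunc.edist_nearestPt_le e y (Finset.le_sup (f := id) hn)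
  rw [edist_dist, edist_dist, ENNReal.ofReal_le_ofReal_iff dist_nonneg] at h1
  rw [← dist_eq_norm]
  exact h1.trans (by rw [dist_comm]; exact le_of_lt hy)

section duality

variable {ι : Type*} [Fintype ι] [Nonempty ι]

lemma integrableOn_comp_bdd {R : ℝ} {K : Set (Euc d)} (hK : MeasurableSet K)
    (hKR : K ⊆ Metric.closedBall 0 R) {T : Euc d → Euc d} (hT : Measurable T)
    (hTR : ∀ x, ‖T x‖ ≤ R) {g : Euc d × Euc d → ℝ} (hg : Continuous g) :
    IntegrableOn (fun x => g (x, T x)) K := by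
  obtain ⟨C, hC⟩ := ((isCompact_closedBall (0 : Euc d) R).prod
    (isCompact_closedBall (0 : Euc d) R)).exists_bound_of_continuousOn hg.continuousOn
  exact integrableOn_of_bdd hKR hK (hg.measurable.comp (by fun_prop)) C fun x hx =>
    hC _ ⟨hKR hx, by simpa using hTR x⟩

lemma Phi_upper {R δ : ℝ} (hR : 0 ≤ R) {K : Set (Euc d)} (hK : IsCompact K) (hne : K.Nonempty)
    (hKR : K ⊆ Metric.closedBall 0 R) {T : Euc d → Euc d} (hT : Measurable T)
    (hTR : ∀ x, ‖T x‖ ≤ R) {φ : Euc d → ℝ} (hφ : Continuous φ)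
    (hsub : ∀ᵐ x ∂volume.restrict K, ∀ z, φ x + ⟪z - x, T x⟫ ≤ φ z)
    {m : ι → ℝ} {y : ι → Euc d}
    (hd : ∀ g : Euc d → ℝ, (∀ u u', g u ≤ g u' + R * ‖u - u'‖) →
      |∑ i, m i * g (y i) - ∫ x in K, g (T x)| ≤ δ)
    {τ : Measure (Euc d)} [IsFiniteMeasure τ] (hτ : ∀ᵐ x ∂τ, x ∈ K) :
    Phi τ m y (fun i => leg K φ (y i)) ≤
      ∫ x, φ x ∂τ + ((∫ x in K, ⟪x, T x⟫) - ∫ x in K, φ x) + δ := by
  have hτR : ∀ᵐ x ∂τ, ‖x‖ ≤ R := hτ.mono fun x hx => by simpa using hKR hx
  have h1 : ∫ x, mx y (fun i => leg K φ (y i)) x ∂τ ≤ ∫ x, φ x ∂τ := by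
    refine integral_mono_ae (integrable_of_continuous hτR (continuous_mx _ _))
      (integrable_of_continuous hτR hφ) ?_
    filter_upwards [hτ] with x hx
    exact mx_le fun i => by linarith [le_leg hK hφ (y i) hx]
  have hl := leg_lip hK hne hKR hφ
  have h2 := (abs_le.1 (hd _ hl)).2
  have i1 : IntegrableOn (fun x => ⟪x, T x⟫) K :=
    integrableOn_comp_bdd hK.measurableSet hKR hT hTR (g := fun q => ⟪q.1, q.2⟫) (by fun_prop)
  have i2 : IntegrableOn φ K := integrableOn_of_subset_ball hKR hφ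
  have h3 : ∫ x in K, leg K φ (T x) ≤ ∫ x in K, (⟪x, T x⟫ - φ x) := by
    refine integral_mono_ae (integrableOn_comp_bdd hK.measurableSet hKR hT hTR
      (g := fun q => leg K φ q.2) ((continuous_of_lip hR hl).comp continuous_snd)) (i1.sub i2) ?_
    filter_upwards [hsub] with x hx
    refine leg_le hne fun z _ => ?_
    have := hx z
    rw [inner_sub_left] at this
    linarith
  rw [integral_sub i1 i2] at h3
  simp only [Phi]
  linarith

lemma sum_lower {R δ : ℝ} {K : Set (Euc d)} (hK : IsCompact K) (hne : K.Nonempty)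
    (hKR : K ⊆ Metric.closedBall 0 R) {T : Euc d → Euc d} {m : ι → ℝ} (hm : ∀ i, 0 < m i)
    {y : ι → Euc d}
    (hd : ∀ g : Euc d → ℝ, (∀ u u', g u ≤ g u' + R * ‖u - u'‖) →
      |∑ i, m i * g (y i) - ∫ x in K, g (T x)| ≤ δ) (p : ι → ℝ) :
    (∫ x in K, leg K (mx y p) (T x)) - δ ≤ ∑ i, m i * p i := by
  have h2 := (abs_le.1 (hd _ (leg_lip hK hne hKR (continuous_mx y p)))).1
  have h3 : ∑ i, m i * leg K (mx y p) (y i) ≤ ∑ i, m i * p i :=
    Finset.sum_le_sum fun i _ => mul_le_mul_of_nonneg_left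
      (leg_le hne fun z _ => by linarith [le_mx y p z i]) (hm i).le
  linarith

end duality

/-- The perturbed density. -/
noncomputable def pert (a : Euc d → ℝ) (v : Euc d) (x : Euc d) : ℝ := 1 - a x / 2 + a (x - v) / 2

lemma integrableOn_mul_bdd {R : ℝ} {K : Set (Euc d)} (_hK : MeasurableSet K)
    (_hKR : K ⊆ Metric.closedBall 0 R) {a f : Euc d → ℝ} (ha : Measurable a) (ha0 : ∀ x, 0 ≤ a x)
    (ha1 : ∀ x, a x ≤ 1) (hf : IntegrableOn f K) : IntegrableOn (fun x => a x * f x) K :=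
  Integrable.bdd_mul (c := 1) hf ha.aestronglyMeasurable
    (Eventually.of_forall fun x => by rw [Real.norm_eq_abs, abs_of_nonneg (ha0 x)]; exact ha1 x)

lemma integral_pert {R : ℝ} {K : Set (Euc d)} (hK : MeasurableSet K)
    (hKR : K ⊆ Metric.closedBall 0 R) {a : Euc d → ℝ} (ha : Measurable a) (ha0 : ∀ x, 0 ≤ a x)
    (ha1 : ∀ x, a x ≤ 1) {v : Euc d} (hsupp : ∀ x, a x ≠ 0 → x ∈ K ∧ x + v ∈ K)
    {f : Euc d → ℝ} (hf : Continuous f) :
    ∫ x, f x ∂dens K (pert a v) =
      (∫ x in K, f x) + 1 / 2 * ∫ x in K, a x * (f (x + v) - f x) := by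
  have hs : Measurable (pert a v) := by unfold pert; fun_prop
  rw [integral_dens K hs (fun x => by unfold pert; linarith [ha1 x, ha0 (x - v)])]
  have i0 : IntegrableOn f K := integrableOn_of_subset_ball hKR hf
  have i1 := integrableOn_mul_bdd hK hKR ha ha0 ha1 i0
  have i2 := integrableOn_mul_bdd hK hKR (a := fun x => a (x - v)) (by fun_prop)
    (fun x => ha0 _) (fun x => ha1 _) i0
  have i3 := integrableOn_mul_bdd hK hKR ha ha0 ha1 (f := fun x => f (x + v))
    (integrableOn_of_subset_ball hKR (by fun_prop))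
  have e1 : ∫ x in K, a (x - v) * f x = ∫ x in K, a x * f (x + v) := by
    rw [setIntegral_eq_integral_of_forall_compl_eq_zero, setIntegral_eq_integral_of_forall_compl_eq_zero,
      ← integral_add_right_eq_self _ v]
    · simp
    · intro x hx
      by_contra h
      exact hx (hsupp x (left_ne_zero_of_mul h)).1
    · intro x hx
      by_contra h
      exact hx (by simpa using (hsupp _ (left_ne_zero_of_mul h)).2)
  have e2 : ∀ x, pert a v x * f x = (f x - 1 / 2 * (a x * f x)) + 1 / 2 * (a (x - v) * f x) := by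
    intro x; unfold pert; ring
  simp only [e2, mul_sub]
  rw [integral_add (f := fun x => f x - 1 / 2 * (a x * f x)) (i0.sub (i1.const_mul _))
    (i2.const_mul _), integral_sub i0 (i1.const_mul _), integral_const_mul, integral_const_mul,
    integral_sub i3 i1, e1]
  ring

theorem main_ineq (hd : 0 < d) {R : ℝ} (hR : 0 < R) {K : Set (Euc d)} (hK : IsCompact K)
    (hKv : Convex ℝ K) (hKR : K ⊆ Metric.closedBall 0 R) (hV : 0 < volume.real K)
    {T₀ T₁ : Euc d → Euc d} (hT₀ : Measurable T₀) (hT₁ : Measurable T₁)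
    (hT₀R : ∀ x, ‖T₀ x‖ ≤ R) (hT₁R : ∀ x, ‖T₁ x‖ ≤ R) {φ₀ φ₁ : Euc d → ℝ} (hφ₀ : Continuous φ₀)
    (hφ₁ : Continuous φ₁)
    (hs₀ : ∀ᵐ x ∂volume.restrict K, ∀ z, φ₀ x + ⟪z - x, T₀ x⟫ ≤ φ₀ z)
    (hs₁ : ∀ᵐ x ∂volume.restrict K, ∀ z, φ₁ x + ⟪z - x, T₁ x⟫ ≤ φ₁ z)
    (π : Measure (Euc d × Euc d)) [IsProbabilityMeasure π]
    (hπR : ∀ᵐ q ∂π, ‖q.1‖ ≤ R ∧ ‖q.2‖ ≤ R)
    (hπ₀ : ∀ g : Euc d → ℝ, Continuous g → ∫ x in K, g (T₀ x) = volume.real K * ∫ q, g q.1 ∂π)
    (hπ₁ : ∀ g : Euc d → ℝ, Continuous g → ∫ x in K, g (T₁ x) = volume.real K * ∫ q, g q.2 ∂π)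
    {a : Euc d → ℝ} (ha : Measurable a) (ha0 : ∀ x, 0 ≤ a x) (ha1 : ∀ x, a x ≤ 1) {v : Euc d}
    (hsupp : ∀ x, a x ≠ 0 → x ∈ K ∧ x + v ∈ K) {β : ℝ} (hβ : 0 < β) :
    1 / 2 * (∫ x in K, a x * ⟪v, T₀ x⟫) ≤ 1 / 2 * (∫ x in K, a x * (φ₁ (x + v) - φ₁ x)) +
      (526 * R ^ 2 * β * (volume.real K * (2 * ∫ q, ‖q.1 - q.2‖ ^ 2 ∂π)) +
        17 / β * ∫ x in K, (pert a v x - 1) ^ 2) := by
  set V := volume.real K with hVd
  have hKm := hK.measurableSet
  have hne : K.Nonempty := by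
    rw [nonempty_iff_ne_empty]; rintro rfl; simp [hVd] at hV
  have hs : Measurable (pert a v) := by unfold pert; fun_prop
  have hs1 : ∀ x, 1 / 2 ≤ pert a v x := fun x => by unfold pert; linarith [ha1 x, ha0 (x - v)]
  have hs2 : ∀ x, pert a v x ≤ 3 / 2 := fun x => by unfold pert; linarith [ha0 x, ha1 (x - v)]
  have := isFiniteMeasure_restrict' hKR
  have := isFiniteMeasure_dens hKm hKR hs 2
    (fun x => abs_le.2 ⟨by linarith [hs1 x], by linarith [hs2 x]⟩)
  have hK₀ : ∀ᵐ x ∂volume.restrict K, x ∈ K := ae_restrict_mem hKm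
  have hK₁ : ∀ᵐ x ∂dens K (pert a v), x ∈ K := dens_ac K _ hK₀
  have hR₀ := ae_norm_le_restrict hKm hKR
  have hR₁ : ∀ᵐ x ∂dens K (pert a v), ‖x‖ ≤ R := dens_ac K _ hR₀
  have hπi : ∀ g : Euc d × Euc d → ℝ, Continuous g → Integrable g π := by
    intro g hg
    obtain ⟨C, hC⟩ := ((isCompact_closedBall (0 : Euc d) R).prod
      (isCompact_closedBall (0 : Euc d) R)).exists_bound_of_continuousOn hg.continuousOn
    refine Integrable.mono' (integrable_const C) hg.aestronglyMeasurable ?_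
    filter_upwards [hπR] with q hq using hC q ⟨by simpa using hq.1, by simpa using hq.2⟩
  have key : ∀ ε : ℝ, 0 < ε → 1 / 2 * (∫ x in K, a x * ⟪v, T₀ x⟫) ≤
      1 / 2 * (∫ x in K, a x * (φ₁ (x + v) - φ₁ x)) +
      (526 * R ^ 2 * β * (V * (2 * (∫ q, ‖q.1 - q.2‖ ^ 2 ∂π) + 8 * ε ^ 2)) +
        17 / β * ∫ x in K, (pert a v x - 1) ^ 2) + 4 * (V * (R * ε)) := by
    intro ε hε
    obtain ⟨ι, _, _, m', w, κ, hm', hκ, hsum⟩ := exists_discretization π R hε
    set m : ι → ℝ := fun i => V * m' i with hm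
    have hm0 : ∀ i, 0 < m i := fun i => mul_pos hV (hm' i)
    have hsum' : ∀ f : Euc d × Euc d → ℝ, ∑ i, m i * f (w i) = V * ∫ q, f (κ q.1, κ q.2) ∂π := by
      intro f
      rw [← (hsum f).2, Finset.mul_sum]
      exact Finset.sum_congr rfl fun i _ => by simp only [hm]; ring
    have hmV : ∑ i, m i = V := by simpa using hsum' fun _ => 1
    have hdisc : ∀ (pr : Euc d × Euc d → Euc d), Continuous pr →
        (∀ q, pr (κ q.1, κ q.2) = κ (pr q)) → (∀ᵐ q ∂π, ‖pr q‖ ≤ R) →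
        ∀ g : Euc d → ℝ, (∀ u u', g u ≤ g u' + R * ‖u - u'‖) →
        |∑ i, m i * g (pr (w i)) - V * ∫ q, g (pr q) ∂π| ≤ V * (R * ε) := by
      intro pr hpr hκpr hprR g hg
      have hgc := continuous_of_lip hR.le hg
      rw [hsum' fun q => g (pr q), ← mul_sub, abs_mul, abs_of_pos hV,
        ← integral_sub (hsum fun q => g (pr q)).1 (hπi (fun q => g (pr q)) (hgc.comp hpr))]
      refine mul_le_mul_of_nonneg_left ?_ hV.le
      have := norm_integral_le_of_norm_le_const (μ := π) (C := R * ε)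
        (f := fun q => g (pr (κ q.1, κ q.2)) - g (pr q)) (by
          filter_upwards [hprR] with q hq
          rw [hκpr, Real.norm_eq_abs, abs_le]
          have h1 := hg (κ (pr q)) (pr q)
          have h2 := hg (pr q) (κ (pr q))
          rw [norm_sub_rev] at h2
          have h3 : R * ‖κ (pr q) - pr q‖ ≤ R * ε := by gcongr; exact hκ _ hq
          constructor <;> linarith)
      simpa using this
    have hd₀ : ∀ g : Euc d → ℝ, (∀ u u', g u ≤ g u' + R * ‖u - u'‖) →
        |∑ i, m i * g (w i).1 - ∫ x in K, g (T₀ x)| ≤ V * (R * ε) := fun g hg => by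
      rw [hπ₀ g (continuous_of_lip hR.le hg)]
      exact hdisc Prod.fst continuous_fst (fun _ => rfl) (hπR.mono fun _ h => h.1) g hg
    have hd₁ : ∀ g : Euc d → ℝ, (∀ u u', g u ≤ g u' + R * ‖u - u'‖) →
        |∑ i, m i * g (w i).2 - ∫ x in K, g (T₁ x)| ≤ V * (R * ε) := fun g hg => by
      rw [hπ₁ g (continuous_of_lip hR.le hg)]
      exact hdisc Prod.snd continuous_snd (fun _ => rfl) (hπR.mono fun _ h => h.2) g hg
    have hW : ∑ i, m i * ‖(w i).2 - (w i).1‖ ^ 2 ≤
        V * (2 * (∫ q, ‖q.1 - q.2‖ ^ 2 ∂π) + 8 * ε ^ 2) := by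
      rw [hsum' fun q => ‖q.2 - q.1‖ ^ 2]
      refine mul_le_mul_of_nonneg_left ?_ hV.le
      have i1 : Integrable (fun q : Euc d × Euc d => 2 * ‖q.1 - q.2‖ ^ 2) π := hπi _ (by fun_prop)
      have := integral_mono_ae (hsum fun q => ‖q.2 - q.1‖ ^ 2).1
        (i1.add (integrable_const (8 * ε ^ 2))) (by
          filter_upwards [hπR] with q hq
          have h1 := hκ _ hq.1
          have h2 := hκ _ hq.2
          have h3 : ‖κ q.2 - κ q.1‖ ≤ ‖q.1 - q.2‖ + 2 * ε := by
            have : κ q.2 - κ q.1 = (κ q.2 - q.2) - (q.1 - q.2) - (κ q.1 - q.1) := by abel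
            rw [this]
            linarith [norm_sub_le ((κ q.2 - q.2) - (q.1 - q.2)) (κ q.1 - q.1),
              norm_sub_le (κ q.2 - q.2) (q.1 - q.2)]
          have h4 := pow_le_pow_left₀ (norm_nonneg _) h3 2
          simp only [Pi.add_apply]
          nlinarith [sq_nonneg (‖q.1 - q.2‖ - 2 * ε)])
      simp only [Pi.add_apply] at this
      rw [integral_add i1 (integrable_const _), integral_const_mul] at this
      simpa using this
    have iT₀ : IntegrableOn (fun x => ⟪x, T₀ x⟫) K :=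
      integrableOn_comp_bdd hKm hKR hT₀ hT₀R (g := fun q => ⟪q.1, q.2⟫) (by fun_prop)
    have iT₁ : IntegrableOn (fun x => ⟪x, T₁ x⟫) K :=
      integrableOn_comp_bdd hKm hKR hT₁ hT₁R (g := fun q => ⟪q.1, q.2⟫) (by fun_prop)
    have iaT₀ : IntegrableOn (fun x => a x * ⟪v, T₀ x⟫) K :=
      integrableOn_mul_bdd hKm hKR ha ha0 ha1
        (integrableOn_comp_bdd hKm hKR hT₀ hT₀R (g := fun q => ⟪v, q.2⟫) (by fun_prop))
    have hmain := interp hd (τ₀ := volume.restrict K) (τ₁ := dens K (pert a v)) (restrict_ac K)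
      ((dens_ac K _).trans (restrict_ac K)) hR hR₀ hR₁ hm0 (by rw [hmV]; simp [hVd])
      (by
        have := integral_pert hKm hKR ha ha0 ha1 hsupp (continuous_const (y := (1 : ℝ)))
        rw [hmV]; simpa using this.symm)
      (fun i => (w i).1) (fun i => (w i).2)
      (fun z hz p p' hp hp' => bary_ineq' hR hKm hKv hKR hs hs1 hs2 hm0 hz hp hp' _ hβ)
      (A := (∫ x in K, ⟪x, T₁ x⟫) - V * (R * ε))
      (B := (∫ x in K, ⟪x, T₀ x⟫) + 1 / 2 * (∫ x in K, a x * ⟪v, T₀ x⟫) - V * (R * ε))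
      (fun p => by
        have h1 := sum_lower hK hne hKR hm0 hd₁ p
        have hc := continuous_mx (fun i => (w i).2) p
        have i1 := integrableOn_comp_bdd hKm hKR hT₁ hT₁R (g := fun q => leg K _ q.2)
          ((continuous_of_lip hR.le (leg_lip hK hne hKR hc)).comp continuous_snd)
        have i2 : IntegrableOn _ K := integrableOn_of_subset_ball hKR hc
        have h2 := setIntegral_mono_on iT₁ (i2.add i1) hKm (fun x hx => by
          simp only [Pi.add_apply]; linarith [le_leg hK hc (T₁ x) hx])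
        simp only [Pi.add_apply] at h2
        rw [integral_add i2 i1] at h2
        simp only [Phi]
        linarith)
      (fun p => by
        have h1 := sum_lower hK hne hKR hm0 hd₀ p
        have hc := continuous_mx (fun i => (w i).1) p
        set M := mx (fun i => (w i).1) p with hM
        have i1 := integrableOn_comp_bdd hKm hKR hT₀ hT₀R (g := fun q => leg K _ q.2)
          ((continuous_of_lip hR.le (leg_lip hK hne hKR hc)).comp continuous_snd)
        have i2 : IntegrableOn M K := integrableOn_of_subset_ball hKR hc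
        have i3 : IntegrableOn (fun x => a x * (M (x + v) - M x)) K :=
          integrableOn_mul_bdd hKm hKR ha ha0 ha1 (integrableOn_of_subset_ball hKR (by fun_prop))
        have h2 := setIntegral_mono_on (iT₀.add (iaT₀.const_mul (1 / 2)))
          ((i2.add (i3.const_mul (1 / 2))).add i1) hKm (fun x hx => by
            simp only [Pi.add_apply]
            have h3 := le_leg hK hc (T₀ x) hx
            by_cases h : a x = 0
            · simp only [h, zero_mul, mul_zero, add_zero]; linarith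
            · have h4 := le_leg hK hc (T₀ x) (hsupp x h).2
              rw [inner_add_left] at h4
              have h5 := mul_le_mul_of_nonneg_left h4 (ha0 x)
              have h6 := mul_le_mul_of_nonneg_left h3 (show 0 ≤ 2 - a x by linarith [ha1 x])
              linarith)
        simp only [Pi.add_apply] at h2
        rw [integral_add iT₀ (iaT₀.const_mul _), integral_add (f := fun x => M x + 1 / 2 * (a x * (M (x + v) - M x))) (i2.add (i3.const_mul _)) i1,
          integral_add i2 (i3.const_mul _), integral_const_mul, integral_const_mul] at h2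
        simp only [Phi]
        rw [integral_pert hKm hKR ha ha0 ha1 hsupp hc]
        linarith)
      (fun i => leg K φ₀ (w i).1) (fun i => leg K φ₁ (w i).2)
    have u₀ := Phi_upper hR.le hK hne hKR hT₀ hT₀R hφ₀ hs₀ hd₀ hK₀
    have u₁ := Phi_upper hR.le hK hne hKR hT₁ hT₁R hφ₁ hs₁ hd₁ hK₁
    rw [integral_pert hKm hKR ha ha0 ha1 hsupp hφ₁] at u₁
    have hW' := mul_le_mul_of_nonneg_left hW (show 0 ≤ 526 * R ^ 2 * β by positivity)
    linarith
  have hc : Continuous fun ε : ℝ => 1 / 2 * (∫ x in K, a x * (φ₁ (x + v) - φ₁ x)) +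
      (526 * R ^ 2 * β * (V * (2 * (∫ q, ‖q.1 - q.2‖ ^ 2 ∂π) + 8 * ε ^ 2)) +
        17 / β * ∫ x in K, (pert a v x - 1) ^ 2) + 4 * (V * (R * ε)) := by fun_prop
  have hlim := (hc.tendsto 0).mono_left (nhdsWithin_le_nhds (s := Ioi 0))
  simp only [ne_eq, OfNat.ofNat_ne_zero, not_false_eq_true, zero_pow, mul_zero, add_zero] at hlim
  exact ge_of_tendsto hlim (eventually_mem_nhdsWithin.mono key)

end Crest.Agent.R82
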