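import Crest.Agent.R82.Bary

/-! Interpolation between two families of sites. -/

set_option autoImplicit false

namespace Crest.Agent.R82

open MeasureTheory Set Filter
open scoped RealInnerProductSpace Topology ENNReal

variable {d : ℕ} {ι : Type*} [Fintype ι] [Nonempty ι]

lemma sum_cell_add {τ : Measure (Euc d)} [IsFiniteMeasure τ] {R : ℝ}
    (hR : ∀ᵐ x ∂τ, ‖x‖ ≤ R) (L : ι → Set (Euc d)) (y v : ι → Euc d) (c : ℝ) :
    ∑ i, ∫ x in L i, ⟪x, y i + c • v i⟫ ∂τ =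
      ∑ i, ∫ x in L i, ⟪x, y i⟫ ∂τ + c * ∑ i, ∫ x in L i, ⟪x, v i⟫ ∂τ := by
  rw [Finset.mul_sum, ← Finset.sum_add_distrib]
  refine Finset.sum_congr rfl fun i _ => ?_
  simp only [inner_add_right, inner_smul_right]
  rw [integral_add (integrable_of_continuous hR (by fun_prop)).integrableOn
    (integrable_of_continuous hR (by fun_prop)).integrableOn, integral_const_mul]

lemma abs_sum_cell_le {τ : Measure (Euc d)} [IsFiniteMeasure τ] {R : ℝ}
    (hR : ∀ᵐ x ∂τ, ‖x‖ ≤ R) (L : ι → Set (Euc d)) (v : ι → Euc d) :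
    |∑ i, ∫ x in L i, ⟪x, v i⟫ ∂τ| ≤ ∑ i, ∫ x, ‖⟪x, v i⟫‖ ∂τ := by
  refine (Finset.abs_sum_le_sum_abs _ _).trans (Finset.sum_le_sum fun i _ => ?_)
  rw [← Real.norm_eq_abs]
  exact (norm_integral_le_integral_norm _).trans (setIntegral_le_integral
    (integrable_of_continuous hR (by fun_prop)) (Eventually.of_forall fun x => norm_nonneg _))

theorem interp_generic {τ₀ τ₁ : Measure (Euc d)} [IsFiniteMeasure τ₀] [IsFiniteMeasure τ₁]
    (h₀ : τ₀ ≪ volume) (h₁ : τ₁ ≪ volume) {R : ℝ} (hR₀ : ∀ᵐ x ∂τ₀, ‖x‖ ≤ R)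
    (hR₁ : ∀ᵐ x ∂τ₁, ‖x‖ ≤ R) {m : ι → ℝ} (hm0 : ∀ i, 0 < m i) (hm₀ : ∑ i, m i = τ₀.real univ)
    (hm₁ : ∑ i, m i = τ₁.real univ) (y v : ι → Euc d)
    (hgen : ∀ t : ℚ, Function.Injective fun i => y i + (t : ℝ) • v i) {Q : ℝ}
    (hQ : ∀ z : ι → Euc d, Function.Injective z → ∀ p p' : ι → ℝ,
      (∀ i, τ₀.real (cell z p i) = m i) → (∀ i, τ₁.real (cell z p' i) = m i) →
      ∑ i, ∫ x in cell z p i, ⟪x, v i⟫ ∂τ₀ - ∑ i, ∫ x in cell z p' i, ⟪x, v i⟫ ∂τ₁ ≤ Q)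
    {A B : ℝ} (hA : ∀ p, A ≤ Phi τ₀ m (fun i => y i + v i) p) (hB : ∀ p, B ≤ Phi τ₁ m y p)
    (P₀ P₁ : ι → ℝ) :
    A + B ≤ Phi τ₁ m (fun i => y i + v i) P₁ + Phi τ₀ m y P₀ + Q := by
  set C : ℝ := ∑ i, ∫ x, ‖⟪x, v i⟫‖ ∂τ₀ with hC
  have key : ∀ n : ℕ, 0 < n →
      A + B ≤ Phi τ₁ m (fun i => y i + v i) P₁ + Phi τ₀ m y P₀ + Q + 2 * C * (n : ℝ)⁻¹ := by
    intro n hn
    have hn' : (0 : ℝ) < n := by exact_mod_cast hn
    set z : ℕ → ι → Euc d := fun k i => y i + ((k : ℝ) * (n : ℝ)⁻¹) • v i with hz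
    have hzi : ∀ k, Function.Injective (z k) := by
      intro k
      have := hgen ((k : ℚ) * (n : ℚ)⁻¹)
      push_cast at this
      exact this
    have hz0 : z 0 = y := by ext i; simp [hz]
    have hzn : z n = fun i => y i + v i := by ext i; simp [hz, hn'.ne']
    have hzs : ∀ k, z (k + 1) = fun i => z k i + (n : ℝ)⁻¹ • v i := by
      intro k; funext i
      simp only [hz]
      push_cast
      rw [add_mul, one_mul, add_smul, add_assoc]
    choose p hp using fun k => exists_laguerre h₀ hR₀ hm0 hm₀ (hzi k)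
    choose p' hp' using fun k => exists_laguerre h₁ hR₁ hm0 hm₁ (hzi k)
    set α : ℕ → ℝ := fun k => ∑ i, ∫ x in cell (z k) (p k) i, ⟪x, v i⟫ ∂τ₀ with hα
    set β : ℕ → ℝ := fun k => ∑ i, ∫ x in cell (z k) (p' k) i, ⟪x, v i⟫ ∂τ₁ with hβ
    set F : ℕ → ℝ := fun k => Phi τ₀ m (z k) (p k) with hF
    set G : ℕ → ℝ := fun k => Phi τ₁ m (z k) (p' k) with hG
    have h1 : ∀ k, F (k + 1) ≤ F k + (n : ℝ)⁻¹ * α (k + 1) := by
      intro k
      have e1 := sum_cell_eq_Phi h₀ hR₀ (hzi (k + 1)) (hp (k + 1))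
      have e2 := sum_cell_le_Phi h₀ hR₀ (hzi (k + 1)) (hp (k + 1)) (z k) (p k)
      have e3 := sum_cell_add hR₀ (cell (z (k + 1)) (p (k + 1))) (z k) v (n : ℝ)⁻¹
      have e4 : ∑ i, ∫ x in cell (z (k + 1)) (p (k + 1)) i, ⟪x, z (k + 1) i⟫ ∂τ₀ =
          ∑ i, ∫ x in cell (z (k + 1)) (p (k + 1)) i, ⟪x, z k i + (n : ℝ)⁻¹ • v i⟫ ∂τ₀ :=
        Finset.sum_congr rfl fun i _ => by rw [congrFun (hzs k) i]
      simp only [hF, hα]
      linarith
    have h2 : ∀ k, G k + (n : ℝ)⁻¹ * β k ≤ G (k + 1) := by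
      intro k
      have e1 := sum_cell_eq_Phi h₁ hR₁ (hzi k) (hp' k)
      have e2 := sum_cell_le_Phi h₁ hR₁ (hzi k) (hp' k) (z (k + 1)) (p' (k + 1))
      have e3 := sum_cell_add hR₁ (cell (z k) (p' k)) (z k) v (n : ℝ)⁻¹
      have e4 : ∑ i, ∫ x in cell (z k) (p' k) i, ⟪x, z (k + 1) i⟫ ∂τ₁ =
          ∑ i, ∫ x in cell (z k) (p' k) i, ⟪x, z k i + (n : ℝ)⁻¹ • v i⟫ ∂τ₁ :=
        Finset.sum_congr rfl fun i _ => by rw [congrFun (hzs k) i]
      simp only [hG, hβ]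
      linarith
    have h3 : ∀ k, α k - β k ≤ Q := fun k => hQ (z k) (hzi k) (p k) (p' k) (hp k) (hp' k)
    have hni : (0 : ℝ) ≤ (n : ℝ)⁻¹ := by positivity
    have h4 : ∀ k : ℕ, F k - G k - (n : ℝ)⁻¹ * α k ≤
        F 0 - G 0 - (n : ℝ)⁻¹ * α 0 + k * ((n : ℝ)⁻¹ * Q) := by
      intro k
      induction k with
      | zero => simp
      | succ k ih =>
        have := mul_le_mul_of_nonneg_left (h3 k) hni
        have := h1 k
        have := h2 k
        push_cast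
        linarith
    have h5 := h4 n
    rw [← mul_assoc, mul_inv_cancel₀ hn'.ne', one_mul] at h5
    have h6 : A ≤ F n := by simp only [hF]; rw [hzn]; exact hA _
    have h7 : B ≤ G 0 := by simp only [hG]; rw [hz0]; exact hB _
    have h8 : G n ≤ Phi τ₁ m (fun i => y i + v i) P₁ := by
      simp only [hG]
      rw [← sum_cell_eq_Phi h₁ hR₁ (hzi n) (hp' n), ← hzn]
      exact sum_cell_le_Phi h₁ hR₁ (hzi n) (hp' n) _ _
    have h9 : F 0 ≤ Phi τ₀ m y P₀ := by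
      simp only [hF]
      rw [← sum_cell_eq_Phi h₀ hR₀ (hzi 0) (hp 0)]
      conv_rhs => rw [← hz0]
      exact sum_cell_le_Phi h₀ hR₀ (hzi 0) (hp 0) _ _
    have h10 : ∀ k, |α k| ≤ C := fun k => abs_sum_cell_le hR₀ _ v
    have h11 := mul_le_mul_of_nonneg_left (abs_le.1 (h10 n)).2 hni
    have h12 := mul_le_mul_of_nonneg_left (abs_le.1 (h10 0)).1 hni
    linarith
  have hlim : Tendsto (fun n : ℕ => Phi τ₁ m (fun i => y i + v i) P₁ + Phi τ₀ m y P₀ + Q +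
      2 * C * (n : ℝ)⁻¹) atTop
      (𝓝 (Phi τ₁ m (fun i => y i + v i) P₁ + Phi τ₀ m y P₀ + Q + 2 * C * 0)) :=
    ((tendsto_inv_atTop_nhds_zero_nat (𝕜 := ℝ)).const_mul _).const_add _
  rw [mul_zero, add_zero] at hlim
  exact ge_of_tendsto hlim ((eventually_gt_atTop 0).mono key)

lemma Phi_le_Phi_add {τ : Measure (Euc d)} [IsFiniteMeasure τ] {R : ℝ}
    (hR : ∀ᵐ x ∂τ, ‖x‖ ≤ R) (m : ι → ℝ) (y y' : ι → Euc d) (p : ι → ℝ) :
    Phi τ m y p ≤ Phi τ m y' p + τ.real univ * (R * ‖y - y'‖) := by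
  have h := integral_mono_ae (integrable_of_continuous hR (continuous_mx y p))
    ((integrable_of_continuous hR (continuous_mx y' p)).add (integrable_const (R * ‖y - y'‖)))
    (by
      filter_upwards [hR] with x hx
      refine mx_le fun i => ?_
      have h1 := le_mx y' p x i
      have h2 := real_inner_le_norm x (y i - y' i)
      have h3 : ‖x‖ * ‖y i - y' i‖ ≤ R * ‖y - y'‖ :=
        mul_le_mul hx (norm_le_pi_norm (y - y') i) (norm_nonneg _) ((norm_nonneg _).trans hx)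
      rw [inner_sub_right] at h2
      simp only [Pi.add_apply]
      linarith)
  simp only [Pi.add_apply] at h
  rw [integral_add (integrable_of_continuous hR (continuous_mx y' p)) (integrable_const _),
    integral_const, smul_eq_mul] at h
  simp only [Phi]
  linarith

lemma exists_generic (hd : 0 < d) (y v : ι → Euc d) {ε : ℝ} (hε : 0 < ε) :
    ∃ w : ι → Euc d, ‖w‖ ≤ ε ∧
      ∀ t : ℚ, Function.Injective fun i => (y i + w i) + (t : ℝ) • v i := by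
  set e : Euc d := EuclideanSpace.single ⟨0, hd⟩ (1 : ℝ) with he
  have he0 : e ≠ 0 := by
    intro h
    have := congrArg (fun x : Euc d => x ⟨0, hd⟩) h
    simp [he] at this
  set idx : ι → ℝ := fun i => ((Fintype.equivFin ι i : ℕ) : ℝ) with hidx
  have hidxi : Function.Injective idx := fun i j h =>
    (Fintype.equivFin ι).injective (Fin.ext (by simp only [hidx] at h; exact_mod_cast h))
  set u : ι → Euc d := fun i => idx i • e with hu
  set bad : Set ℝ := ⋃ (t : ℚ) (i : ι) (j : ι), {η | i ≠ j ∧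
    (y i + η • u i) + (t : ℝ) • v i = (y j + η • u j) + (t : ℝ) • v j} with hbad
  have hcount : bad.Countable := by
    refine countable_iUnion fun t => countable_iUnion fun i => countable_iUnion fun j => ?_
    refine Set.Subsingleton.countable fun η hη η' hη' => ?_
    have h1 : (η - η') • (u i - u j) = 0 := by
      have a1 := hη.2
      have a2 := hη'.2
      have : (η - η') • (u i - u j) =
          ((y i + η • u i) + (t : ℝ) • v i - ((y j + η • u j) + (t : ℝ) • v j)) -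
          ((y i + η' • u i) + (t : ℝ) • v i - ((y j + η' • u j) + (t : ℝ) • v j)) := by
        simp only [sub_smul, smul_sub]; abel
      rw [this, a1, a2, sub_self, sub_self, sub_self]
    have h2 : u i - u j ≠ 0 := by
      simp only [hu, ← sub_smul]
      exact smul_ne_zero (sub_ne_zero.2 (hidxi.ne hη.1)) he0
    exact sub_eq_zero.1 ((smul_eq_zero.1 h1).resolve_right h2)
  obtain ⟨η, hη, hη'⟩ := (hcount.dense_compl ℝ).exists_mem_open
    (isOpen_Ioo (a := 0) (b := ε / (‖u‖ + 1))) (nonempty_Ioo.2 (by positivity))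
  refine ⟨η • u, ?_, fun t i j hij => ?_⟩
  · rw [norm_smul, Real.norm_eq_abs, abs_of_pos hη'.1]
    have := hη'.2
    rw [lt_div_iff₀ (by positivity)] at this
    nlinarith [hη'.1]
  · by_contra hne
    exact hη (mem_iUnion.2 ⟨t, mem_iUnion.2 ⟨i, mem_iUnion.2 ⟨j, hne, hij⟩⟩⟩)

theorem interp (hd : 0 < d) {τ₀ τ₁ : Measure (Euc d)} [IsFiniteMeasure τ₀] [IsFiniteMeasure τ₁]
    (h₀ : τ₀ ≪ volume) (h₁ : τ₁ ≪ volume) {R : ℝ} (hR : 0 < R) (hR₀ : ∀ᵐ x ∂τ₀, ‖x‖ ≤ R)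
    (hR₁ : ∀ᵐ x ∂τ₁, ‖x‖ ≤ R) {m : ι → ℝ} (hm0 : ∀ i, 0 < m i) (hm₀ : ∑ i, m i = τ₀.real univ)
    (hm₁ : ∑ i, m i = τ₁.real univ) (y₀ y₁ : ι → Euc d) {Q : ℝ}
    (hQ : ∀ z : ι → Euc d, Function.Injective z → ∀ p p' : ι → ℝ,
      (∀ i, τ₀.real (cell z p i) = m i) → (∀ i, τ₁.real (cell z p' i) = m i) →
      ∑ i, ∫ x in cell z p i, ⟪x, y₁ i - y₀ i⟫ ∂τ₀ -
        ∑ i, ∫ x in cell z p' i, ⟪x, y₁ i - y₀ i⟫ ∂τ₁ ≤ Q)
    {A B : ℝ} (hA : ∀ p, A ≤ Phi τ₀ m y₁ p) (hB : ∀ p, B ≤ Phi τ₁ m y₀ p)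
    (P₀ P₁ : ι → ℝ) :
    A + B ≤ Phi τ₁ m y₁ P₁ + Phi τ₀ m y₀ P₀ + Q := by
  refine le_of_forall_pos_le_add fun ε hε => ?_
  set V : ℝ := ∑ i, m i with hV
  have hV0 : 0 < V := Finset.sum_pos (fun i _ => hm0 i) Finset.univ_nonempty
  obtain ⟨w, hw, hgen⟩ := exists_generic hd y₀ (fun i => y₁ i - y₀ i)
    (ε := ε / (4 * V * R)) (by positivity)
  set δ : ℝ := V * (R * ‖w‖) with hδ
  have hδε : 4 * δ ≤ ε := by
    rw [le_div_iff₀ (by positivity)] at hw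
    rw [hδ]; linarith
  have e1 : (fun i => y₀ i + w i + (y₁ i - y₀ i)) = y₁ + w := by funext i; simp only [Pi.add_apply]; abel
  have e2 : (fun i => y₀ i + w i) = y₀ + w := rfl
  have n1 : ∀ z : ι → Euc d, ‖z - (z + w)‖ = ‖w‖ := fun z => by simp
  have n2 : ∀ z : ι → Euc d, ‖z + w - z‖ = ‖w‖ := fun z => by simp
  have h := interp_generic h₀ h₁ hR₀ hR₁ hm0 hm₀ hm₁ (fun i => y₀ i + w i) (fun i => y₁ i - y₀ i)
    hgen hQ (A := A - δ) (B := B - δ)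
    (fun p => by
      have := Phi_le_Phi_add hR₀ m y₁ (y₁ + w) p
      rw [n1, ← hm₀] at this
      rw [e1]; linarith [hA p])
    (fun p => by
      have := Phi_le_Phi_add hR₁ m y₀ (y₀ + w) p
      rw [n1, ← hm₁] at this
      rw [e2]; linarith [hB p]) P₀ P₁
  rw [e1, e2] at h
  have a1 := Phi_le_Phi_add hR₁ m (y₁ + w) y₁ P₁
  have a2 := Phi_le_Phi_add hR₀ m (y₀ + w) y₀ P₀
  rw [n2, ← hm₁] at a1
  rw [n2, ← hm₀] at a2
  linarith

end Crest.Agent.R82
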