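import Mathlib

/-! Semi-discrete optimal transport: Laguerre cells with prescribed masses. -/

set_option autoImplicit false

namespace Crest.Agent.R82

open MeasureTheory Set Filter
open scoped RealInnerProductSpace Topology

/-- Euclidean space. -/
abbrev Euc (d : ℕ) := EuclideanSpace ℝ (Fin d)

variable {d : ℕ} {ι : Type*} [Fintype ι] [Nonempty ι]

/-- The maximum of the affine functions `x ↦ ⟪x, y i⟫ - p i`. -/
noncomputable def mx (y : ι → Euc d) (p : ι → ℝ) (x : Euc d) : ℝ :=
  Finset.univ.sup' Finset.univ_nonempty fun i => ⟪x, y i⟫ - p i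

/-- The Laguerre cell. -/
def cell (y : ι → Euc d) (p : ι → ℝ) (i : ι) : Set (Euc d) :=
  {x | ∀ j, ⟪x, y j⟫ - p j ≤ ⟪x, y i⟫ - p i}

lemma le_mx (y : ι → Euc d) (p : ι → ℝ) (x : Euc d) (i : ι) : ⟪x, y i⟫ - p i ≤ mx y p x :=
  Finset.le_sup' (fun i => ⟪x, y i⟫ - p i) (Finset.mem_univ i)

lemma mx_le {y : ι → Euc d} {p : ι → ℝ} {x : Euc d} {c : ℝ} (h : ∀ i, ⟪x, y i⟫ - p i ≤ c) :
    mx y p x ≤ c :=
  Finset.sup'_le _ _ fun i _ => h i

lemma exists_mem_cell (y : ι → Euc d) (p : ι → ℝ) (x : Euc d) : ∃ i, x ∈ cell y p i := by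
  obtain ⟨i, -, hi⟩ := Finset.exists_max_image Finset.univ (fun i => ⟪x, y i⟫ - p i)
    Finset.univ_nonempty
  exact ⟨i, fun j => hi j (Finset.mem_univ j)⟩

lemma mx_eq_of_mem_cell {y : ι → Euc d} {p : ι → ℝ} {x : Euc d} {i : ι} (h : x ∈ cell y p i) :
    mx y p x = ⟪x, y i⟫ - p i :=
  le_antisymm (mx_le h) (le_mx y p x i)

lemma continuous_mx (y : ι → Euc d) (p : ι → ℝ) : Continuous (mx y p) :=
  Continuous.finset_sup'_apply _ fun i _ => by fun_prop

omit [Fintype ι] [Nonempty ι] in
lemma isClosed_cell (y : ι → Euc d) (p : ι → ℝ) (i : ι) : IsClosed (cell y p i) := by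
  have : cell y p i = ⋂ j, {x | ⟪x, y j⟫ - p j ≤ ⟪x, y i⟫ - p i} := by
    ext x; simp [cell]
  rw [this]
  exact isClosed_iInter fun j => isClosed_le (by fun_prop) (by fun_prop)

omit [Fintype ι] [Nonempty ι] in
lemma measurableSet_cell (y : ι → Euc d) (p : ι → ℝ) (i : ι) : MeasurableSet (cell y p i) :=
  (isClosed_cell y p i).measurableSet

lemma iUnion_cell (y : ι → Euc d) (p : ι → ℝ) : ⋃ i, cell y p i = univ :=
  eq_univ_of_forall fun x => mem_iUnion.2 (exists_mem_cell y p x)

lemma volume_hyperplane {v : Euc d} (hv : v ≠ 0) (c : ℝ) : volume {x : Euc d | ⟪x, v⟫ = c} = 0 := by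
  have h0 : volume ((innerSL ℝ v).ker : Set (Euc d)) = 0 := by
    refine Measure.addHaar_submodule _ _ fun h => hv ?_
    have : v ∈ (innerSL ℝ v).ker := by rw [h]; trivial
    simpa using this
  have h1 : {x : Euc d | ⟪x, v⟫ = c} =
      (fun x => x + -((c / ‖v‖ ^ 2) • v)) ⁻¹' ((innerSL ℝ v).ker : Set (Euc d)) := by
    ext x
    have : ‖v‖ ≠ 0 := norm_ne_zero_iff.2 hv
    simp only [mem_ofPred_eq, mem_preimage, SetLike.mem_coe, LinearMap.mem_ker,
      ContinuousLinearMap.coe_coe, innerSL_apply_apply, inner_add_right, inner_neg_right,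
      inner_smul_right, real_inner_self_eq_norm_sq]
    rw [real_inner_comm, div_mul_cancel₀ _ (by positivity), add_neg_eq_zero]
  rw [h1, measure_preimage_add_right, h0]

omit [Fintype ι] [Nonempty ι] in
lemma aedisjoint_cell {y : ι → Euc d} (hy : Function.Injective y) (p : ι → ℝ)
    {τ : Measure (Euc d)} (hτ : τ ≪ volume) :
    Pairwise (Function.onFun (AEDisjoint τ) (cell y p)) := by
  intro i j hij
  refine hτ (measure_mono_null ?_ (volume_hyperplane (v := y i - y j)
    (sub_ne_zero.2 (hy.ne hij)) (p i - p j)))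
  rintro x ⟨h1, h2⟩
  have := h1 j
  have := h2 i
  simp only [mem_ofPred_eq, inner_sub_right]
  linarith

lemma integral_eq_sum_cell {y : ι → Euc d} (hy : Function.Injective y) (p : ι → ℝ)
    {τ : Measure (Euc d)} (hτ : τ ≪ volume) {f : Euc d → ℝ} (hf : Integrable f τ) :
    ∫ x, f x ∂τ = ∑ i, ∫ x in cell y p i, f x ∂τ := by
  rw [← setIntegral_univ, ← iUnion_cell y p, integral_iUnion_ae
    (fun i => (measurableSet_cell y p i).nullMeasurableSet) (aedisjoint_cell hy p hτ)
    hf.integrableOn, tsum_fintype]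

lemma integrable_of_continuous {τ : Measure (Euc d)} [IsFiniteMeasure τ] {R : ℝ}
    (hR : ∀ᵐ x ∂τ, ‖x‖ ≤ R) {F : Type*} [NormedAddCommGroup F] [SecondCountableTopology F]
    {f : Euc d → F} (hf : Continuous f) : Integrable f τ := by
  obtain ⟨C, hC⟩ := (isCompact_closedBall (0 : Euc d) R).exists_bound_of_continuousOn
    hf.continuousOn
  refine Integrable.mono' (integrable_const C) hf.aestronglyMeasurable ?_
  filter_upwards [hR] with x hx using hC x (by simpa using hx)

/-- The dual functional. -/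
noncomputable def Phi (τ : Measure (Euc d)) (m : ι → ℝ) (y : ι → Euc d) (p : ι → ℝ) : ℝ :=
  ∫ x, mx y p x ∂τ + ∑ i, m i * p i

lemma mx_le_mx_add (y : ι → Euc d) (p p' : ι → ℝ) (x : Euc d) :
    mx y p x ≤ mx y p' x + ‖p - p'‖ := by
  refine mx_le fun i => ?_
  have h1 := le_mx y p' x i
  have h2 := norm_le_pi_norm (p - p') i
  rw [Pi.sub_apply, Real.norm_eq_abs] at h2
  linarith [neg_abs_le (p i - p' i)]

lemma continuous_Phi {τ : Measure (Euc d)} [IsFiniteMeasure τ] {R : ℝ}
    (hR : ∀ᵐ x ∂τ, ‖x‖ ≤ R) (m : ι → ℝ) (y : ι → Euc d) : Continuous (Phi τ m y) := by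
  refine Continuous.add ?_ (by fun_prop)
  refine LipschitzWith.continuous (K := ⟨τ.real univ, by positivity⟩)
    (LipschitzWith.of_le_add_mul _ fun p p' => ?_)
  have h := integral_mono (integrable_of_continuous hR (continuous_mx y p))
    ((integrable_of_continuous hR (continuous_mx y p')).add (integrable_const ‖p - p'‖))
    (fun x => mx_le_mx_add y p p' x)
  simp only [Pi.add_apply] at h
  rw [integral_add (integrable_of_continuous hR (continuous_mx y p')) (integrable_const _),
    integral_const, smul_eq_mul] at h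
  rw [dist_eq_norm]
  exact h

lemma Phi_sub_const {τ : Measure (Euc d)} [IsFiniteMeasure τ] {R : ℝ}
    (hR : ∀ᵐ x ∂τ, ‖x‖ ≤ R) {m : ι → ℝ} (hm : ∑ i, m i = τ.real univ) (y : ι → Euc d)
    (p : ι → ℝ) (c : ℝ) : Phi τ m y (fun i => p i - c) = Phi τ m y p := by
  have h1 : ∀ x, mx y (fun i => p i - c) x = mx y p x + c := by
    intro x
    obtain ⟨i, hi⟩ := exists_mem_cell y p x
    rw [mx_eq_of_mem_cell hi, mx_eq_of_mem_cell (i := i) (fun j => by linarith [hi j])]
    ring
  simp only [Phi, h1, mul_sub, Finset.sum_sub_distrib, ← Finset.sum_mul, hm]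
  rw [integral_add (integrable_of_continuous hR (continuous_mx y p)) (integrable_const _),
    integral_const, smul_eq_mul]
  ring

lemma exists_min_Phi {τ : Measure (Euc d)} [IsFiniteMeasure τ] {R : ℝ}
    (hR : ∀ᵐ x ∂τ, ‖x‖ ≤ R) {m : ι → ℝ} (hm0 : ∀ i, 0 < m i) (hm : ∑ i, m i = τ.real univ)
    (y : ι → Euc d) : ∃ p, ∀ p', Phi τ m y p ≤ Phi τ m y p' := by
  obtain ⟨i₀, -, hi₀⟩ := Finset.exists_min_image Finset.univ m Finset.univ_nonempty
  set B : ℝ := τ.real univ * (|R| * ‖y‖) with hB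
  set Λ : ℝ := max 0 ((Phi τ m y 0 + B) / m i₀) with hΛ
  obtain ⟨p, -, hp⟩ := (isCompact_Icc (a := (0 : ι → ℝ)) (b := fun _ => Λ)).exists_isMinOn
    ⟨0, le_rfl, fun _ => le_max_left _ _⟩ (continuous_Phi hR m y).continuousOn
  refine ⟨p, fun p' => ?_⟩
  obtain ⟨j₀, -, hj₀⟩ := Finset.exists_min_image Finset.univ p' Finset.univ_nonempty
  rw [← Phi_sub_const hR hm y p' (p' j₀)]
  set p'' : ι → ℝ := fun i => p' i - p' j₀ with hp''
  have h0 : ∀ i, 0 ≤ p'' i := fun i => sub_nonneg.2 (hj₀ i (Finset.mem_univ i))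
  by_cases hle : ∀ i, p'' i ≤ Λ
  · exact hp ⟨h0, hle⟩
  push Not at hle
  obtain ⟨k, hk⟩ := hle
  refine (hp ⟨le_rfl, fun _ => le_max_left _ _⟩).trans ?_
  have h1 : -B ≤ ∫ x, mx y p'' x ∂τ := by
    have : ∫ _ : Euc d, -(|R| * ‖y‖) ∂τ ≤ ∫ x, mx y p'' x ∂τ := by
      refine integral_mono_ae (integrable_const _)
        (integrable_of_continuous hR (continuous_mx y p'')) ?_
      filter_upwards [hR] with x hx
      have h2 := le_mx y p'' x j₀
      have h3 := abs_real_inner_le_norm x (y j₀)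
      have h4 : ‖x‖ * ‖y j₀‖ ≤ |R| * ‖y‖ :=
        mul_le_mul (hx.trans (le_abs_self R)) (norm_le_pi_norm y j₀) (norm_nonneg _) (abs_nonneg _)
      simp only [hp'', sub_self, sub_zero] at h2
      linarith [neg_abs_le ⟪x, y j₀⟫]
    rw [integral_const, smul_eq_mul, mul_neg] at this
    exact this
  have h2 : m k * p'' k ≤ ∑ i, m i * p'' i :=
    Finset.single_le_sum (f := fun i => m i * p'' i)
      (fun i _ => mul_nonneg (hm0 i).le (h0 i)) (Finset.mem_univ k)
  have h3 : Phi τ m y 0 + B ≤ m k * p'' k := by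
    have : (Phi τ m y 0 + B) / m i₀ ≤ p'' k := (le_max_right _ _).trans hk.le
    rw [div_le_iff₀ (hm0 i₀)] at this
    refine this.trans ?_
    rw [mul_comm]
    exact mul_le_mul_of_nonneg_right (hi₀ k (Finset.mem_univ k)) (h0 k)
  show Phi τ m y 0 ≤ ∫ x, mx y p'' x ∂τ + ∑ i, m i * p'' i
  linarith

lemma mass_le_of_min {τ : Measure (Euc d)} [IsFiniteMeasure τ] {R : ℝ}
    (hR : ∀ᵐ x ∂τ, ‖x‖ ≤ R) {m : ι → ℝ} {y : ι → Euc d} {p : ι → ℝ}
    (hp : ∀ p', Phi τ m y p ≤ Phi τ m y p') (i : ι) : m i ≤ τ.real (cell y p i) := by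
  classical
  set B : ℝ → Set (Euc d) := fun t => {x | ∀ j, ⟪x, y j⟫ - p j ≤ ⟪x, y i⟫ - p i + t} with hB
  have hBm : ∀ t, MeasurableSet (B t) := by
    intro t
    have : B t = ⋂ j, {x | ⟪x, y j⟫ - p j ≤ ⟪x, y i⟫ - p i + t} := by
      ext x; simp [hB]
    rw [this]
    exact (isClosed_iInter fun j => isClosed_le (by fun_prop) (by fun_prop)).measurableSet
  have key : ∀ t, 0 < t → m i ≤ τ.real (B t) := by
    intro t ht
    have h1 := hp (Function.update p i (p i - t))
    have h2 : ∀ x, mx y (Function.update p i (p i - t)) x ≤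
        mx y p x + (B t).indicator (fun _ => t) x := by
      intro x
      refine mx_le fun j => ?_
      have hi0 : 0 ≤ (B t).indicator (fun _ => t) x := indicator_nonneg (fun _ _ => ht.le) x
      by_cases hj : j = i
      · subst hj
        rw [Function.update_self]
        by_cases hx : x ∈ B t
        · rw [indicator_of_mem hx]; linarith [le_mx y p x j]
        · simp only [hB, mem_ofPred_eq, not_forall, not_le] at hx
          obtain ⟨k, hk⟩ := hx
          linarith [le_mx y p x k]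
      · rw [Function.update_of_ne hj]; linarith [le_mx y p x j]
    have h3 := integral_mono (integrable_of_continuous hR (continuous_mx y _))
      ((integrable_of_continuous hR (continuous_mx y p)).add
        ((integrable_const t).indicator (hBm t))) h2
    simp only [Pi.add_apply] at h3
    rw [integral_add (integrable_of_continuous hR (continuous_mx y p))
      ((integrable_const t).indicator (hBm t)), integral_indicator_const _ (hBm t),
      smul_eq_mul] at h3
    have h4 : ∑ j, m j * Function.update p i (p i - t) j = ∑ j, m j * p j - m i * t := by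
      rw [← Finset.add_sum_erase _ _ (Finset.mem_univ i),
        ← Finset.add_sum_erase _ (fun j => m j * p j) (Finset.mem_univ i), Function.update_self]
      rw [Finset.sum_congr rfl fun j hj => by
        rw [Function.update_of_ne (Finset.ne_of_mem_erase hj)]]
      ring
    simp only [Phi, h4] at h1
    have : m i * t ≤ τ.real (B t) * t := by linarith
    exact le_of_mul_le_mul_right this ht
  have hanti : Antitone fun n : ℕ => B (1 / ((n : ℝ) + 1)) := by
    intro a b hab x hx j
    have : 1 / ((b : ℝ) + 1) ≤ 1 / ((a : ℝ) + 1) := Nat.one_div_le_one_div hab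
    linarith [hx j]
  have hinter : ⋂ n : ℕ, B (1 / ((n : ℝ) + 1)) = cell y p i := by
    ext x
    simp only [mem_iInter, hB, mem_ofPred_eq, cell]
    constructor
    · intro h j
      refine le_of_forall_pos_le_add fun ε hε => ?_
      obtain ⟨n, hn⟩ := exists_nat_one_div_lt hε
      linarith [h n j]
    · intro h n j
      have : 0 < 1 / ((n : ℝ) + 1) := by positivity
      linarith [h j]
  have hlim := tendsto_measure_iInter_atTop (μ := τ)
    (fun n : ℕ => (hBm (1 / ((n : ℝ) + 1))).nullMeasurableSet) hanti ⟨0, measure_ne_top _ _⟩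
  rw [hinter] at hlim
  exact ge_of_tendsto' ((ENNReal.tendsto_toReal (measure_ne_top _ _)).comp hlim)
    fun n => key _ (by positivity)

/-- Existence of Laguerre cells with prescribed masses. -/
theorem exists_laguerre {τ : Measure (Euc d)} [IsFiniteMeasure τ] (hτ : τ ≪ volume) {R : ℝ}
    (hR : ∀ᵐ x ∂τ, ‖x‖ ≤ R) {m : ι → ℝ} (hm0 : ∀ i, 0 < m i) (hm : ∑ i, m i = τ.real univ)
    {y : ι → Euc d} (hy : Function.Injective y) : ∃ p, ∀ i, τ.real (cell y p i) = m i := by
  obtain ⟨p, hp⟩ := exists_min_Phi hR hm0 hm y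
  refine ⟨p, fun i => ?_⟩
  have h1 := integral_eq_sum_cell hy p hτ (integrable_const (1 : ℝ))
  simp only [integral_const, smul_eq_mul, mul_one, measureReal_restrict_apply_univ] at h1
  exact ((Finset.sum_eq_sum_iff_of_le fun j _ => mass_le_of_min hR hp j).1 (hm.trans h1) i
    (Finset.mem_univ i)).symm

/-- Weak duality. -/
lemma sum_cell_le_Phi {τ : Measure (Euc d)} [IsFiniteMeasure τ] (hτ : τ ≪ volume) {R : ℝ}
    (hR : ∀ᵐ x ∂τ, ‖x‖ ≤ R) {m : ι → ℝ} {y : ι → Euc d} (hy : Function.Injective y) {p : ι → ℝ}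
    (hp : ∀ i, τ.real (cell y p i) = m i) (y' : ι → Euc d) (p' : ι → ℝ) :
    ∑ i, ∫ x in cell y p i, ⟪x, y' i⟫ ∂τ ≤ Phi τ m y' p' := by
  rw [Phi, integral_eq_sum_cell hy p hτ (integrable_of_continuous hR (continuous_mx y' p')),
    ← Finset.sum_add_distrib]
  refine Finset.sum_le_sum fun i _ => ?_
  have hi := (integrable_of_continuous hR (continuous_mx y' p')).integrableOn (s := cell y p i)
  have h := integral_mono
    (integrable_of_continuous hR (f := fun x => ⟪x, y' i⟫) (by fun_prop)).integrableOn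
    (hi.add (integrable_const (p' i))) (fun x => by
      simp only [Pi.add_apply]; linarith [le_mx y' p' x i])
  simp only [Pi.add_apply] at h
  rw [integral_add hi (integrable_const _), integral_const, measureReal_restrict_apply_univ, hp,
    smul_eq_mul] at h
  exact h

/-- Strong duality. -/
lemma sum_cell_eq_Phi {τ : Measure (Euc d)} [IsFiniteMeasure τ] (hτ : τ ≪ volume) {R : ℝ}
    (hR : ∀ᵐ x ∂τ, ‖x‖ ≤ R) {m : ι → ℝ} {y : ι → Euc d} (hy : Function.Injective y) {p : ι → ℝ}
    (hp : ∀ i, τ.real (cell y p i) = m i) :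
    ∑ i, ∫ x in cell y p i, ⟪x, y i⟫ ∂τ = Phi τ m y p := by
  rw [Phi, integral_eq_sum_cell hy p hτ (integrable_of_continuous hR (continuous_mx y p)),
    ← Finset.sum_add_distrib]
  refine Finset.sum_congr rfl fun i _ => ?_
  rw [setIntegral_congr_fun (measurableSet_cell y p i) (fun x hx => mx_eq_of_mem_cell hx),
    integral_sub (integrable_of_continuous hR (f := fun x => ⟪x, y i⟫) (by fun_prop)).integrableOn
      (integrable_const _), integral_const, measureReal_restrict_apply_univ, hp, smul_eq_mul]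
  ring

end Crest.Agent.R82
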