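import Mathlib
import Crest.Prelude.Def_QuadraticTransport

set_option autoImplicit false

open MeasureTheory Crest.AnalysisR.OT
open scoped ENNReal NNReal RealInnerProductSpace

namespace Crest.Agent.R82.Sharp

section General
variable {E : Type*} [NormedAddCommGroup E] [InnerProductSpace ℝ E] [MeasurableSpace E]
  [BorelSpace E] [SecondCountableTopology E]

lemma enorm_sq_eq (u : E) : ‖u‖ₑ ^ 2 = ENNReal.ofReal (‖u‖ ^ 2) := by
  rw [← ofReal_norm_eq_enorm, ENNReal.ofReal_pow (norm_nonneg _)]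

/-- the cost of a competitor is the cost of the argmax map plus the duality gap -/
lemma cost_eq {ρ : Measure E} [IsProbabilityMeasure ρ] {T S : E → E} (Y : Finset E)
    (hT : Measurable T) (hS : Measurable S) (hTY : ∀ x, T x ∈ Y)
    (hmax : ∀ x, ∀ y ∈ Y, ⟪x, y⟫ ≤ ⟪x, T x⟫) (hmap : ρ.map S = ρ.map T) :
    (∀ᵐ x ∂ρ, S x ∈ Y) ∧ ∫⁻ x, ‖x - S x‖ₑ ^ 2 ∂ρ = ∫⁻ x, ‖x - T x‖ₑ ^ 2 ∂ρ +
      ∫⁻ x, ENNReal.ofReal (2 * (⟪x, T x⟫ - ⟪x, S x⟫)) ∂ρ := by
  have hY : MeasurableSet {y : E | y ∈ Y} := Y.measurableSet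
  have hSY : ∀ᵐ x ∂ρ, S x ∈ Y := by
    have h1 : ∀ᵐ y ∂(ρ.map T), y ∈ Y := by
      rw [ae_map_iff (p := fun y => y ∈ Y) hT.aemeasurable hY]; exact Filter.Eventually.of_forall hTY
    rw [← hmap, ae_map_iff (p := fun y => y ∈ Y) hS.aemeasurable hY] at h1
    exact h1
  refine ⟨hSY, ?_⟩
  have hm : Measurable fun y : E => ‖y‖ₑ ^ 2 := by fun_prop
  have hB : ∫⁻ x, ‖S x‖ₑ ^ 2 ∂ρ = ∫⁻ x, ‖T x‖ₑ ^ 2 ∂ρ := by
    rw [← lintegral_map hm hS, ← lintegral_map hm hT, hmap]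
  have hBfin : ∫⁻ x, ‖T x‖ₑ ^ 2 ∂ρ ≠ ∞ := by
    apply ne_top_of_le_ne_top (b := ∫⁻ _, ∑ y ∈ Y, ‖y‖ₑ ^ 2 ∂ρ)
    · rw [lintegral_const, measure_univ, mul_one]
      exact ENNReal.sum_ne_top.2 fun y _ => by simp
    · exact lintegral_mono fun x =>
        Finset.single_le_sum (f := fun y : E => ‖y‖ₑ ^ 2) (fun _ _ => zero_le) (hTY x)
  have hpt : ∀ᵐ x ∂ρ, ‖x - S x‖ₑ ^ 2 + ‖T x‖ₑ ^ 2 =
      ‖x - T x‖ₑ ^ 2 + ENNReal.ofReal (2 * (⟪x, T x⟫ - ⟪x, S x⟫)) + ‖S x‖ₑ ^ 2 := by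
    filter_upwards [hSY] with x hx
    have h0 : 0 ≤ 2 * (⟪x, T x⟫ - ⟪x, S x⟫) := by linarith [hmax x _ hx]
    simp only [enorm_sq_eq]
    rw [← ENNReal.ofReal_add (by positivity) (by positivity),
      ← ENNReal.ofReal_add (by positivity) h0,
      ← ENNReal.ofReal_add (by positivity) (by positivity)]
    congr 1
    rw [norm_sub_sq_real, norm_sub_sq_real]; ring
  have h2 := lintegral_congr_ae hpt
  rw [lintegral_add_right _ (by fun_prop), lintegral_add_right _ (by fun_prop),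
    lintegral_add_left (by fun_prop), hB] at h2
  exact (ENNReal.add_left_inj hBfin).1 h2

lemma isOptimal_of_argmax {ρ : Measure E} [IsProbabilityMeasure ρ] {T : E → E} (Y : Finset E)
    (hT : Measurable T) (hTY : ∀ x, T x ∈ Y) (hmax : ∀ x, ∀ y ∈ Y, ⟪x, y⟫ ≤ ⟪x, T x⟫) :
    IsOptimalMap ρ (ρ.map T) T :=
  ⟨hT, rfl, fun S hS hmap => by
    rw [(cost_eq Y hT hS hTY hmax hmap).2]; exact le_self_add⟩

lemma ae_eq_of_isOptimal {ρ : Measure E} [IsProbabilityMeasure ρ] {T S : E → E} (Y : Finset E)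
    (hT : Measurable T) (hTY : ∀ x, T x ∈ Y) (hmax : ∀ x, ∀ y ∈ Y, ⟪x, y⟫ ≤ ⟪x, T x⟫)
    (hties : ∀ᵐ x ∂ρ, ∀ y ∈ Y, ∀ y' ∈ Y, ⟪x, y⟫ = ⟪x, y'⟫ → y = y')
    {M : ℝ} (hM : ∀ᵐ x ∂ρ, ‖x‖ ≤ M) (hS : IsOptimalMap ρ (ρ.map T) S) : S =ᵐ[ρ] T := by
  obtain ⟨hSm, hmap, hopt⟩ := hS
  obtain ⟨hSY, h1⟩ := cost_eq Y hT hSm hTY hmax hmap
  have h2 := hopt T hT rfl
  have hfin : ∫⁻ x, ‖x - T x‖ₑ ^ 2 ∂ρ ≠ ∞ := by
    apply ne_top_of_le_ne_top (b := ∫⁻ _, ENNReal.ofReal ((M + ∑ y ∈ Y, ‖y‖) ^ 2) ∂ρ)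
    · rw [lintegral_const, measure_univ, mul_one]; simp
    · apply lintegral_mono_ae
      filter_upwards [hM] with x hx
      rw [enorm_sq_eq]
      apply ENNReal.ofReal_le_ofReal
      have h3 : ‖T x‖ ≤ ∑ y ∈ Y, ‖y‖ :=
        Finset.single_le_sum (f := fun y : E => ‖y‖) (fun _ _ => norm_nonneg _) (hTY x)
      have h4 := norm_sub_le x (T x)
      gcongr
      linarith
  rw [h1] at h2
  have h3 : ∫⁻ x, ENNReal.ofReal (2 * (⟪x, T x⟫ - ⟪x, S x⟫)) ∂ρ = 0 := by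
    by_contra hne
    exact absurd h2 (not_le.2 (ENNReal.lt_add_right hfin hne))
  rw [lintegral_eq_zero_iff (by fun_prop)] at h3
  filter_upwards [h3, hSY, hties] with x hx hx' ht
  simp only [Pi.zero_apply, ENNReal.ofReal_eq_zero] at hx
  exact ht _ hx' _ (hTY x) (by linarith [hmax x _ hx'])

omit [InnerProductSpace ℝ E] [SecondCountableTopology E] in
lemma threeAtomic_map {ρ : Measure E} [IsProbabilityMeasure ρ] {T : E → E} (hT : Measurable T)
    (y : Fin 3 → E) (hy : Function.Injective y) (hTY : ∀ x, T x ∈ Finset.univ.map ⟨y, hy⟩)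
    (hpos : ∀ i, ρ (T ⁻¹' {y i}) ≠ 0) : IsThreeAtomic (ρ.map T) := by
  refine ⟨y, hy, fun i => (ρ (T ⁻¹' {y i})).toReal,
    fun i => ENNReal.toReal_pos (hpos i) (measure_ne_top _ _), ?_⟩
  rw [(Measure.ae_mem_finset_iff_map_eq_sum_dirac hT.aemeasurable).1
    (Filter.Eventually.of_forall hTY), Finset.sum_map]
  apply Finset.sum_congr rfl
  intro i _
  rw [ENNReal.ofReal_toReal (measure_ne_top _ _)]
  rfl

end General

section Cube
variable {d : ℕ}

/-- the cube -/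
def cube (d : ℕ) : Set (EuclideanSpace ℝ (Fin d)) := {x | ∀ i, |x i| ≤ 1}

/-- a box with one distinguished side -/
def box (i₀ : Fin d) (a₀ b₀ a b : ℝ) : Set (EuclideanSpace ℝ (Fin d)) :=
  {x | (a₀ ≤ x i₀ ∧ x i₀ ≤ b₀) ∧ ∀ i, i ≠ i₀ → a ≤ x i ∧ x i ≤ b}

lemma volume_box (i₀ : Fin d) (a₀ b₀ a b : ℝ) :
    volume (box i₀ a₀ b₀ a b) = ENNReal.ofReal (b₀ - a₀) * ENNReal.ofReal (b - a) ^ (d - 1) := by
  have h1 : box i₀ a₀ b₀ a b = WithLp.ofLp ⁻¹'
      Set.Icc (fun i => if i = i₀ then a₀ else a) (fun i => if i = i₀ then b₀ else b) := by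
    ext x
    simp only [box, Set.mem_ofPred_eq, Set.mem_preimage, Set.mem_Icc, Pi.le_def]
    constructor
    · rintro ⟨h, h'⟩
      constructor <;> intro i <;> split_ifs with hi
      · subst hi; exact h.1
      · exact (h' i hi).1
      · subst hi; exact h.2
      · exact (h' i hi).2
    · rintro ⟨h, h'⟩
      refine ⟨⟨by simpa using h i₀, by simpa using h' i₀⟩, fun i hi =>
        ⟨by simpa [hi] using h i, by simpa [hi] using h' i⟩⟩
  rw [h1, (PiLp.volume_preserving_ofLp (Fin d)).measure_preimage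
    measurableSet_Icc.nullMeasurableSet, Real.volume_Icc_pi,
    ← Finset.mul_prod_erase _ _ (Finset.mem_univ i₀)]
  simp only [if_true]
  congr 1
  rw [Finset.prod_congr rfl (g := fun _ => ENNReal.ofReal (b - a))]
  · simp [Finset.card_erase_of_mem]
  · intro i hi
    simp [Finset.ne_of_mem_erase hi]

lemma cube_eq_box (i₀ : Fin d) : cube d = box i₀ (-1) 1 (-1) 1 := by
  ext x
  simp only [cube, box, Set.mem_ofPred_eq, abs_le]
  constructor
  · intro h; exact ⟨h i₀, fun i _ => h i⟩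
  · rintro ⟨h, h'⟩ i
    by_cases hi : i = i₀
    · subst hi; exact h
    · exact h' i hi

lemma measurableSet_cube : MeasurableSet (cube d) := by
  unfold cube; measurability

lemma volume_cube (i₀ : Fin d) : volume (cube d) = 2 * 2 ^ (d - 1) := by
  rw [cube_eq_box i₀, volume_box]; norm_num

lemma rho_apply (s : Set (EuclideanSpace ℝ (Fin d))) :
    uniformProbOn (cube d) s = (volume (cube d))⁻¹ * volume (s ∩ cube d) := by
  rw [uniformProbOn, Measure.smul_apply, Measure.restrict_apply' measurableSet_cube, smul_eq_mul]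

lemma rho_prob (i₀ : Fin d) : IsProbabilityMeasure (uniformProbOn (cube d)) := by
  constructor
  rw [rho_apply, Set.univ_inter, ENNReal.inv_mul_cancel]
  · rw [volume_cube i₀]; simp
  · rw [volume_cube i₀]; finiteness

lemma rho_ae_cube : ∀ᵐ x ∂(uniformProbOn (cube d)), x ∈ cube d := by
  rw [ae_iff, rho_apply]
  have : {a | a ∉ cube d} ∩ cube d = ∅ := by ext x; simp
  rw [this]; simp

lemma rho_ac : uniformProbOn (cube d) ≪ volume :=
  (Measure.smul_absolutelyContinuous).trans Measure.absolutelyContinuous_restrict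

lemma rho_ties (Y : Finset (EuclideanSpace ℝ (Fin d))) :
    ∀ᵐ x ∂(uniformProbOn (cube d)), ∀ y ∈ Y, ∀ y' ∈ Y, ⟪x, y⟫ = ⟪x, y'⟫ → y = y' := by
  apply rho_ac.ae_le
  change ∀ᵐ x ∂volume, _
  simp only [Filter.eventually_all_finset]
  intro y _ y' _
  by_cases h : y = y'
  · simp [h]
  have h1 := Measure.addHaar_submodule (volume : Measure (EuclideanSpace ℝ (Fin d)))
    (ℝ ∙ (y - y'))ᗮ (by
      rw [Ne, Submodule.orthogonal_eq_top_iff, Submodule.span_singleton_eq_bot, sub_eq_zero]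
      exact h)
  rw [ae_iff]
  refine measure_mono_null ?_ h1
  intro x hx
  simp only [Set.mem_ofPred_eq, Classical.not_imp] at hx
  rw [SetLike.mem_coe, Submodule.mem_orthogonal_singleton_iff_inner_left, inner_sub_right, hx.1,
    sub_self]

lemma norm_le_of_cube {x : EuclideanSpace ℝ (Fin d)} (hx : x ∈ cube d) : ‖x‖ ≤ Real.sqrt d := by
  rw [EuclideanSpace.norm_eq]
  apply Real.sqrt_le_sqrt
  calc ∑ i, ‖x i‖ ^ 2 ≤ ∑ _i : Fin d, (1 : ℝ) := Finset.sum_le_sum fun i _ => by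
        rw [Real.norm_eq_abs]; exact pow_le_one₀ (abs_nonneg _) (hx i)
    _ = d := by simp

variable (i₀ i₁ : Fin d)

/-- the three atoms -/
noncomputable def atom (t : ℝ) : Fin 3 → EuclideanSpace ℝ (Fin d) :=
  ![EuclideanSpace.single i₀ (-1), EuclideanSpace.single i₀ 1, EuclideanSpace.single i₁ t]

/-- the argmax map -/
noncomputable def Tm (t : ℝ) (x : EuclideanSpace ℝ (Fin d)) : EuclideanSpace ℝ (Fin d) :=
  if |x i₀| < t * x i₁ then EuclideanSpace.single i₁ t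
  else if 0 ≤ x i₀ then EuclideanSpace.single i₀ 1 else EuclideanSpace.single i₀ (-1)

variable {i₀ i₁}

lemma atom_inj (h : i₀ ≠ i₁) (t : ℝ) : Function.Injective (atom i₀ i₁ t) := by
  intro a b hab
  have := congrArg (fun v : EuclideanSpace ℝ (Fin d) => v i₀) hab
  fin_cases a <;> fin_cases b <;> simp [atom, h] at this ⊢ <;> norm_num at this

lemma measurable_Tm (t : ℝ) : Measurable (Tm i₀ i₁ t) := by
  unfold Tm
  apply Measurable.ite (by measurability) measurable_const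
  exact Measurable.ite (by measurability) measurable_const measurable_const

lemma Tm_mem (h : i₀ ≠ i₁) (t : ℝ) (x : EuclideanSpace ℝ (Fin d)) :
    Tm i₀ i₁ t x ∈ Finset.univ.map ⟨atom i₀ i₁ t, atom_inj h t⟩ := by
  simp only [Finset.mem_map, Finset.mem_univ, true_and, Function.Embedding.coeFn_mk]
  unfold Tm
  split_ifs
  · exact ⟨2, rfl⟩
  · exact ⟨1, rfl⟩
  · exact ⟨0, rfl⟩

lemma Tm_max (h : i₀ ≠ i₁) (t : ℝ) (x : EuclideanSpace ℝ (Fin d)) :
    ∀ y ∈ Finset.univ.map ⟨atom i₀ i₁ t, atom_inj h t⟩, ⟪x, y⟫ ≤ ⟪x, Tm i₀ i₁ t x⟫ := by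
  intro y hy
  simp only [Finset.mem_map, Finset.mem_univ, true_and, Function.Embedding.coeFn_mk] at hy
  obtain ⟨i, rfl⟩ := hy
  unfold Tm
  have h1 := le_abs_self (x i₀)
  have h2 := neg_abs_le (x i₀)
  split_ifs with ha hb
  · fin_cases i <;> simp [atom, EuclideanSpace.inner_single_right] <;> linarith
  · rw [abs_of_nonneg hb] at ha
    fin_cases i <;> simp [atom, EuclideanSpace.inner_single_right] <;> linarith
  · rw [abs_of_neg (not_le.1 hb)] at ha
    fin_cases i <;> simp [atom, EuclideanSpace.inner_single_right] <;> linarith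

lemma Tm_mem_cube (t : ℝ) (ht : |t| ≤ 1) (x : EuclideanSpace ℝ (Fin d)) :
    Tm i₀ i₁ t x ∈ cube d := by
  intro i
  unfold Tm
  split_ifs <;> simp only [PiLp.single_apply] <;> split_ifs <;> simp [ht]

/-- reflection of the coordinate `i₁` -/
noncomputable def rf (i₁ : Fin d) : EuclideanSpace ℝ (Fin d) ≃ₗᵢ[ℝ] EuclideanSpace ℝ (Fin d) :=
  LinearIsometryEquiv.piLpCongrRight 2 fun i =>
    if i = i₁ then LinearIsometryEquiv.neg ℝ else LinearIsometryEquiv.refl ℝ ℝ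

lemma rf_apply (x : EuclideanSpace ℝ (Fin d)) (i : Fin d) :
    rf i₁ x i = if i = i₁ then -x i else x i := by
  simp only [rf, LinearIsometryEquiv.piLpCongrRight_apply]
  split_ifs <;> simp

lemma rf_preserving : MeasurePreserving (rf i₁) (uniformProbOn (cube d)) (uniformProbOn (cube d)) := by
  have h1 : rf i₁ ⁻¹' cube d = cube d := by
    ext x
    simp only [cube, Set.mem_preimage, Set.mem_ofPred_eq, rf_apply]
    apply forall_congr'
    intro i
    split_ifs <;> simp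
  have h2 := (rf i₁).measurePreserving.restrict_preimage (measurableSet_cube (d := d))
  rw [h1] at h2
  exact h2.smul_measure _

lemma Tm_neg_rf (h : i₀ ≠ i₁) (t : ℝ) (x : EuclideanSpace ℝ (Fin d)) :
    Tm i₀ i₁ (-t) (rf i₁ x) = rf i₁ (Tm i₀ i₁ t x) := by
  unfold Tm
  simp only [rf_apply, if_neg h, if_true, neg_mul_neg]
  split_ifs <;> ext i <;> simp only [rf_apply, PiLp.single_apply] <;> split_ifs <;> simp_all

lemma cell_pos (h : i₀ ≠ i₁) (t : ℝ) (ht0 : t ≠ 0) (ht : |t| ≤ 1 / 2) (i : Fin 3) :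
    uniformProbOn (cube d) (Tm i₀ i₁ t ⁻¹' {atom i₀ i₁ t i}) ≠ 0 := by
  have key : ∀ a₀ b₀ a b : ℝ, a₀ < b₀ → a < b →
      box i₀ a₀ b₀ a b ⊆ Tm i₀ i₁ t ⁻¹' {atom i₀ i₁ t i} ∩ cube d →
      uniformProbOn (cube d) (Tm i₀ i₁ t ⁻¹' {atom i₀ i₁ t i}) ≠ 0 := by
    intro a₀ b₀ a b h1 h2 h3
    rw [rho_apply]
    apply mul_ne_zero
    · rw [volume_cube i₀, ENNReal.inv_ne_zero]; finiteness
    · apply ne_of_gt
      refine lt_of_lt_of_le ?_ (measure_mono h3)
      rw [volume_box]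
      apply ENNReal.mul_pos
      · simpa using h1
      · apply pow_ne_zero; simpa using h2
  have hb : ∀ x : EuclideanSpace ℝ (Fin d), |x i₁| ≤ 1 → t * x i₁ ≤ 1 / 2 := by
    intro x hx
    calc t * x i₁ ≤ |t * x i₁| := le_abs_self _
      _ = |t| * |x i₁| := abs_mul _ _
      _ ≤ 1 / 2 * 1 := by gcongr
      _ = 1 / 2 := by norm_num
  have hcube : ∀ a₀ b₀ a b : ℝ, -1 ≤ a₀ → b₀ ≤ 1 → -1 ≤ a → b ≤ 1 → box i₀ a₀ b₀ a b ⊆ cube d := by
    intro a₀ b₀ a b h1 h2 h3 h4 x hx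
    rw [cube_eq_box i₀]
    exact ⟨⟨h1.trans hx.1.1, hx.1.2.trans h2⟩,
      fun i hi => ⟨h3.trans (hx.2 i hi).1, (hx.2 i hi).2.trans h4⟩⟩
  fin_cases i
  · apply key (-1) (-1 / 2) (-1) 1 (by norm_num) (by norm_num)
    intro x hx
    have hc := hcube _ _ _ _ le_rfl (by norm_num) le_rfl le_rfl hx
    refine ⟨?_, hc⟩
    have h1 := hb x (hc i₁)
    have h2 := hx.1.2
    have h3 := neg_abs_le (x i₀)
    simp only [Set.mem_preimage, Set.mem_singleton_iff, Tm]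
    rw [if_neg (by linarith), if_neg (by linarith)]; rfl
  · apply key (1 / 2) 1 (-1) 1 (by norm_num) (by norm_num)
    intro x hx
    have hc := hcube _ _ _ _ (by norm_num) le_rfl le_rfl le_rfl hx
    refine ⟨?_, hc⟩
    have h1 := hb x (hc i₁)
    have h2 := hx.1.1
    have h3 := le_abs_self (x i₀)
    simp only [Set.mem_preimage, Set.mem_singleton_iff, Tm]
    rw [if_neg (by linarith), if_pos (by linarith)]; rfl
  · have hpos := abs_pos.2 ht0
    rcases lt_or_gt_of_ne ht0 with hneg | hpos'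
    · apply key (-(|t| / 4)) (|t| / 4) (-1) (-1 / 2) (by linarith) (by norm_num)
      intro x hx
      refine ⟨?_, hcube _ _ _ _ (by linarith) (by linarith) le_rfl (by norm_num) hx⟩
      have h1 := abs_le.2 hx.1
      have h2 := (hx.2 i₁ h.symm).2
      simp only [Set.mem_preimage, Set.mem_singleton_iff, Tm]
      rw [abs_of_neg hneg] at h1
      rw [if_pos (by nlinarith)]; rfl
    · apply key (-(|t| / 4)) (|t| / 4) (1 / 2) 1 (by linarith) (by norm_num)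
      intro x hx
      refine ⟨?_, hcube _ _ _ _ (by linarith) (by linarith) (by norm_num) le_rfl hx⟩
      have h1 := abs_le.2 hx.1
      have h2 := (hx.2 i₁ h.symm).1
      simp only [Set.mem_preimage, Set.mem_singleton_iff, Tm]
      rw [abs_of_pos hpos'] at h1
      rw [if_pos (by nlinarith)]; rfl

lemma wedge_le (t : ℝ) (ht0 : 0 < t) :
    uniformProbOn (cube d) {x | |x i₀| < t * x i₁} ≤ ENNReal.ofReal t := by
  rw [rho_apply]
  have h1 : {x : EuclideanSpace ℝ (Fin d) | |x i₀| < t * x i₁} ∩ cube d ⊆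
      box i₀ (-t) t (-1) 1 := by
    rintro x ⟨hx, hc⟩
    refine ⟨abs_le.1 ?_, fun i _ => abs_le.1 (hc i)⟩
    have := (abs_le.1 (hc i₁)).2
    simp only [Set.mem_ofPred_eq] at hx
    nlinarith
  refine (mul_le_mul_right (measure_mono h1) _).trans (le_of_eq ?_)
  rw [volume_box, volume_cube i₀]
  have e1 : ENNReal.ofReal (t - -t) = 2 * ENNReal.ofReal t := by
    rw [sub_neg_eq_add, ENNReal.ofReal_add ht0.le ht0.le, two_mul]
  have e2 : ENNReal.ofReal (1 - -1) = 2 := by norm_num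
  rw [e1, e2, mul_right_comm, ← mul_assoc, ENNReal.inv_mul_cancel (by simp) (by finiteness),
    one_mul]

lemma le_wedge (h : i₀ ≠ i₁) (t : ℝ) (ht0 : 0 < t) (ht : t ≤ 1) :
    ENNReal.ofReal (t / 4 ^ d) ≤ uniformProbOn (cube d) {x | |x i₀| < t * x i₁} := by
  rw [rho_apply]
  have h1 : box i₀ (-(t / 4)) (t / 4) (1 / 2) 1 ⊆
      {x : EuclideanSpace ℝ (Fin d) | |x i₀| < t * x i₁} ∩ cube d := by
    intro x hx
    constructor
    · have h1 := abs_le.2 hx.1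
      have h2 := (hx.2 i₁ h.symm).1
      simp only [Set.mem_ofPred_eq]
      nlinarith
    · rw [cube_eq_box i₀]
      exact ⟨⟨by linarith [hx.1.1], by linarith [hx.1.2]⟩,
        fun i hi => ⟨by linarith [(hx.2 i hi).1], (hx.2 i hi).2⟩⟩
  refine le_trans (le_of_eq ?_) (mul_le_mul_right (measure_mono h1) _)
  rw [volume_box, volume_cube i₀]
  obtain ⟨m, rfl⟩ : ∃ m, d = m + 1 := ⟨d - 1, by have := i₀.pos; omega⟩
  have e1 : (2 : ℝ≥0∞) * 2 ^ (m + 1 - 1) = ENNReal.ofReal (2 * 2 ^ m) := by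
    rw [ENNReal.ofReal_mul (by norm_num), ENNReal.ofReal_pow (by norm_num)]; simp
  rw [e1, ← ENNReal.ofReal_inv_of_pos (by positivity), ← ENNReal.ofReal_pow (by norm_num),
    ← ENNReal.ofReal_mul (by linarith), ← ENNReal.ofReal_mul (by positivity)]
  congr 1
  have : (4 : ℝ) ^ (m + 1) = 4 * (2 ^ m * 2 ^ m) := by rw [← mul_pow, pow_succ]; norm_num; ring
  rw [this, Nat.add_sub_cancel]
  have e2 : (1 - 1 / 2 : ℝ) ^ m = (2 ^ m)⁻¹ := by rw [← inv_pow]; norm_num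
  rw [e2]
  field_simp
  ring

lemma exists_eps (α : ℝ) (hα : 1 / 3 < α) (C c : ℝ) (hc : 0 < c) :
    ∃ t : ℝ, 0 < t ∧ t ≤ 1 / 2 ∧ C * (4 * t ^ 3) ^ α < t * c := by
  have h1 : ContinuousAt (fun t : ℝ => C * (4 : ℝ) ^ α * t ^ (3 * α - 1)) 0 :=
    continuousAt_const.mul (Real.continuousAt_rpow_const _ _ (Or.inr (by linarith)))
  have h2 : ∀ᶠ t in nhds (0 : ℝ), C * (4 : ℝ) ^ α * t ^ (3 * α - 1) < c := by
    apply h1.eventually_lt continuousAt_const
    rw [Real.zero_rpow (by linarith), mul_zero]; exact hc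
  have h3 : ∀ᶠ t in nhds (0 : ℝ), t < 1 / 2 := eventually_lt_nhds (by norm_num)
  obtain ⟨t, ⟨h4, h5⟩, h6⟩ := (((h2.and h3).filter_mono nhdsWithin_le_nhds).and
    (self_mem_nhdsWithin (s := Set.Ioi (0 : ℝ)))).exists
  have ht : 0 < t := h6
  refine ⟨t, ht, h5.le, ?_⟩
  have e : (4 * t ^ 3) ^ α = t * ((4 : ℝ) ^ α * t ^ (3 * α - 1)) := by
    rw [Real.mul_rpow (by norm_num) (by positivity), ← Real.rpow_natCast, ← Real.rpow_mul ht.le,
      Real.rpow_sub_one ht.ne']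
    push_cast
    field_simp
  rw [e]
  nlinarith

end Cube

end Crest.Agent.R82.Sharp
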