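import Crest.Agent.R82.Direction

/-! The one-third stability estimate for quadratic optimal transport maps. -/

set_option autoImplicit false

namespace Crest.Agent.R82

open MeasureTheory Set Filter Crest.AnalysisR.OT
open scoped RealInnerProductSpace Topology ENNReal NNReal

variable {d : ℕ}

lemma exists_trunc_optimal {ρ μ : Measure (Euc d)} {T : Euc d → Euc d} (hT : IsOptimalMap ρ μ T)
    {R : ℝ} (hR : 0 ≤ R) (hμ : ∀ᵐ y ∂μ, ‖y‖ ≤ R) :
    ∃ T', IsOptimalMap ρ μ T' ∧ (∀ x, ‖T' x‖ ≤ R) ∧ T' =ᵐ[ρ] T := by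
  have hm : MeasurableSet {x | ‖T x‖ ≤ R} := measurableSet_le hT.1.norm measurable_const
  have hae : {x | ‖T x‖ ≤ R}.indicator T =ᵐ[ρ] T := by
    rw [← hT.2.1] at hμ
    filter_upwards [ae_of_ae_map hT.1.aemeasurable hμ] with x hx
    exact indicator_of_mem (s := {x | ‖T x‖ ≤ R}) hx T
  refine ⟨_, ⟨hT.1.indicator hm, (Measure.map_congr hae).trans hT.2.1, fun S hS hS' => ?_⟩,
    fun x => ?_, hae⟩
  · refine le_trans (le_of_eq (lintegral_congr_ae ?_)) (hT.2.2 S hS hS')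
    filter_upwards [hae] with x hx
    rw [hx]
  · by_cases h : x ∈ {x | ‖T x‖ ≤ R}
    · rw [indicator_of_mem h]; exact h
    · rw [indicator_of_notMem h]; simpa using hR

lemma norm_sq_eq_sum_max (z : Euc d) : ‖z‖ ^ 2 =
    ∑ i, ((max ⟪EuclideanSpace.single i (1 : ℝ), z⟫ 0) ^ 2 +
      (max ⟪-EuclideanSpace.single i (1 : ℝ), z⟫ 0) ^ 2) := by
  rw [EuclideanSpace.real_norm_sq_eq]
  refine Finset.sum_congr rfl fun i _ => ?_
  rw [inner_neg_left, EuclideanSpace.inner_single_left]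
  simp only [conj_trivial, one_mul]
  rcases le_total (z i) 0 with h | h
  · rw [max_eq_right h, max_eq_left (by linarith)]; ring
  · rw [max_eq_left h, max_eq_right (by linarith)]; ring

theorem upper_bound (hd : 0 < d) (K : Set (Euc d)) (hKc : IsCompact K) (hKv : Convex ℝ K)
    (hKi : (interior K).Nonempty) (Y : Set (Euc d)) (hYc : IsCompact Y) :
    ∃ C : ℝ≥0, ∀ μ ν : Measure (Euc d), IsProbabilityOn Y μ → IsProbabilityOn Y ν →
      ∀ Tμ Tν : Euc d → Euc d,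
        IsOptimalMap (uniformProbOn K) μ Tμ → IsOptimalMap (uniformProbOn K) ν Tν →
        ∀ π : Measure (Euc d × Euc d), IsPairCoupling μ ν π →
          ∫⁻ x, ‖Tμ x - Tν x‖ₑ ^ 2 ∂(uniformProbOn K) ≤ C * quadCost π ^ (1 / 3 : ℝ) := by
  obtain ⟨R, hR, hRsub⟩ := (hKc.union hYc).isBounded.subset_closedBall_lt 0 0
  have hKR : K ⊆ Metric.closedBall 0 R := subset_union_left.trans hRsub
  have hYR : Y ⊆ Metric.closedBall 0 R := subset_union_right.trans hRsub
  have hKm := hKc.measurableSet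
  have hK0 : volume K ≠ 0 := (Measure.measure_pos_of_nonempty_interior volume hKi).ne'
  have hKt := volume_ne_top_of_subset hKR
  have hV : 0 < volume.real K := ENNReal.toReal_pos hK0 hKt
  obtain ⟨x₀, hx₀⟩ := hKi
  obtain ⟨r, hr, hball⟩ := Metric.nhds_basis_closedBall.mem_iff.1 (mem_interior_iff_mem_nhds.1 hx₀)
  set C₀ : ℝ := (8 * R ^ 2 + 272 * R) * (d / r) + 4208 * R ^ 3 with hC₀
  have hC₀0 : 0 ≤ C₀ := by positivity
  refine ⟨(d * (2 * C₀)).toNNReal, fun μ ν hμ hν Tμ Tν hTμ hTν π hπ => ?_⟩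
  have hμR : ∀ᵐ y ∂μ, ‖y‖ ≤ R := by
    filter_upwards [(mem_ae_iff (μ := μ) (s := Y)).2 hμ.2] with y hy
    simpa using hYR hy
  have hνR : ∀ᵐ y ∂ν, ‖y‖ ≤ R := by
    filter_upwards [(mem_ae_iff (μ := ν) (s := Y)).2 hν.2] with y hy
    simpa using hYR hy
  obtain ⟨T₀, hT₀, hT₀R, e₀⟩ := exists_trunc_optimal hTμ hR.le hμR
  obtain ⟨T₁, hT₁, hT₁R, e₁⟩ := exists_trunc_optimal hTν hR.le hνR
  obtain ⟨φ₀, hφ₀, hs₀⟩ := exists_potential_of_optimal hd hKm hKv hKR hK0 hT₀ hT₀R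
  obtain ⟨φ₁, hφ₁, hs₁⟩ := exists_potential_of_optimal hd hKm hKv hKR hK0 hT₁ hT₁R
  have : IsProbabilityMeasure π := ⟨by
    have := hμ.1.measure_univ
    rwa [← hπ.1, Measure.map_apply measurable_fst MeasurableSet.univ, preimage_univ] at this⟩
  have hπR : ∀ᵐ q ∂π, ‖q.1‖ ≤ R ∧ ‖q.2‖ ≤ R := by
    rw [← hπ.1] at hμR
    rw [← hπ.2] at hνR
    exact (ae_of_ae_map measurable_fst.aemeasurable hμR).and
      (ae_of_ae_map measurable_snd.aemeasurable hνR)
  have hpush : ∀ (T : Euc d → Euc d) (pr : Euc d × Euc d → Euc d), Measurable T → Measurable pr →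
      (uniformProbOn K).map T = π.map pr → ∀ g : Euc d → ℝ, Continuous g →
      ∫ x in K, g (T x) = volume.real K * ∫ q, g (pr q) ∂π := by
    intro T pr hT hpr h g hg
    rw [← integral_map hpr.aemeasurable hg.aestronglyMeasurable, ← h,
      integral_map hT.aemeasurable hg.aestronglyMeasurable, uniformProbOn, integral_smul_measure,
      ENNReal.toReal_inv, smul_eq_mul, ← measureReal_def, ← mul_assoc, mul_inv_cancel₀ hV.ne',
      one_mul]
  have hπ₀ := hpush T₀ Prod.fst hT₀.1 measurable_fst (hT₀.2.1.trans hπ.1.symm)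
  have hπ₁ := hpush T₁ Prod.snd hT₁.1 measurable_snd (hT₁.2.1.trans hπ.2.symm)
  set W : ℝ := ∫ q, ‖q.1 - q.2‖ ^ 2 ∂π with hW
  have hW0 : 0 ≤ W := integral_nonneg fun q => by positivity
  have hWi : Integrable (fun q : Euc d × Euc d => ‖q.1 - q.2‖ ^ 2) π := by
    refine Integrable.mono' (integrable_const ((R + R) ^ 2))
      (Continuous.aestronglyMeasurable (by fun_prop)) ?_
    filter_upwards [hπR] with q hq
    rw [Real.norm_eq_abs, abs_of_nonneg (by positivity)]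
    exact pow_le_pow_left₀ (norm_nonneg _) ((norm_sub_le _ _).trans (add_le_add hq.1 hq.2)) 2
  have m₀ := hT₀.1
  have m₁ := hT₁.1
  have hΔ : ∀ x, ‖T₀ x - T₁ x‖ ≤ R + R := fun x =>
    (norm_sub_le _ _).trans (add_le_add (hT₀R x) (hT₁R x))
  have hXi : IntegrableOn (fun x => ‖T₀ x - T₁ x‖ ^ 2) K :=
    integrableOn_of_bdd hKR hKm (by fun_prop) ((R + R) ^ 2) fun x _ => by
      rw [abs_of_nonneg (by positivity)]
      exact pow_le_pow_left₀ (norm_nonneg _) (hΔ x) 2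
  have hei : ∀ e : Euc d, ‖e‖ = 1 → IntegrableOn (fun x => (max ⟪e, T₀ x - T₁ x⟫ 0) ^ 2) K :=
    fun e he => integrableOn_of_bdd hKR hKm (by fun_prop) ((R + R) ^ 2) fun x _ => by
      rw [abs_of_nonneg (by positivity)]
      refine pow_le_pow_left₀ (le_max_right _ _) (max_le ?_ (by linarith)) 2
      exact (real_inner_le_norm _ _).trans (by rw [he, one_mul]; exact hΔ x)
  have key : ∀ h : ℝ, 0 < h → W ≤ h ^ 3 →
      ∫ x in K, ‖T₀ x - T₁ x‖ ^ 2 ≤ d * (2 * C₀) * volume.real K * h := by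
    intro h hh hWh
    have he : ∀ i : Fin d, ‖(EuclideanSpace.single i (1 : ℝ) : Euc d)‖ = 1 := fun i => by simp
    have he' : ∀ i : Fin d, ‖-(EuclideanSpace.single i (1 : ℝ) : Euc d)‖ = 1 := fun i => by simp
    simp only [norm_sq_eq_sum_max]
    rw [integral_finsetSum (μ := volume.restrict K) (f := fun i x => (max ⟪EuclideanSpace.single i (1 : ℝ), T₀ x - T₁ x⟫ 0) ^ 2 +
      (max ⟪-EuclideanSpace.single i (1 : ℝ), T₀ x - T₁ x⟫ 0) ^ 2) _
      fun i _ => by exact Integrable.add (hei _ (he i)) (hei _ (he' i))]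
    refine (Finset.sum_le_sum (g := fun _ => 2 * (C₀ * volume.real K * h)) fun i _ => ?_).trans
      (le_of_eq (by simp; ring))
    rw [integral_add (hei _ (he i)) (hei _ (he' i))]
    have h1 := direction_est hd hR hKc hKv hKR hV hr hball m₀ m₁ hT₀R hT₁R hφ₀ hφ₁ hs₀ hs₁ π hπR
      hπ₀ hπ₁ (he i) hh hWh
    have h2 := direction_est hd hR hKc hKv hKR hV hr hball m₀ m₁ hT₀R hT₁R hφ₀ hφ₁ hs₀ hs₁ π hπR
      hπ₀ hπ₁ (he' i) hh hWh
    linarith
  have hw0 : 0 ≤ W ^ (1 / 3 : ℝ) := Real.rpow_nonneg hW0 _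
  have hw3 : (W ^ (1 / 3 : ℝ)) ^ 3 = W := by
    rw [← Real.rpow_natCast, ← Real.rpow_mul hW0]; norm_num
  have key2 : ∫ x in K, ‖T₀ x - T₁ x‖ ^ 2 ≤ d * (2 * C₀) * volume.real K * W ^ (1 / 3 : ℝ) := by
    have hc : Continuous fun ε : ℝ => d * (2 * C₀) * volume.real K * (W ^ (1 / 3 : ℝ) + ε) := by
      fun_prop
    have hlim := (hc.tendsto 0).mono_left (nhdsWithin_le_nhds (s := Ioi 0))
    rw [add_zero] at hlim
    refine ge_of_tendsto hlim (eventually_mem_nhdsWithin.mono fun ε hε => key _ ?_ ?_)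
    · exact add_pos_of_nonneg_of_pos hw0 hε
    · exact hw3.symm.le.trans (pow_le_pow_left₀ hw0 (le_add_of_nonneg_right (le_of_lt hε)) 3)
  have e2 : ∫⁻ x, ‖Tμ x - Tν x‖ₑ ^ 2 ∂(uniformProbOn K) =
      ∫⁻ x, ‖T₀ x - T₁ x‖ₑ ^ 2 ∂(uniformProbOn K) := by
    refine lintegral_congr_ae ?_
    filter_upwards [e₀, e₁] with x h0 h1
    rw [h0, h1]
  rw [e2, quadCost, lintegral_enorm_sq_eq hWi, uniformProbOn, lintegral_smul_measure,
    lintegral_enorm_sq_eq hXi, ENNReal.ofReal_rpow_of_nonneg hW0 (by norm_num), smul_eq_mul,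
    ← ENNReal.ofReal_toReal hKt, ← measureReal_def, ← ENNReal.ofReal_inv_of_pos hV,
    ← ENNReal.ofReal_mul (by positivity)]
  change _ ≤ ENNReal.ofReal _ * _
  rw [← ENNReal.ofReal_mul (by positivity)]
  refine ENNReal.ofReal_le_ofReal ?_
  rw [inv_mul_le_iff₀ hV]
  refine key2.trans (le_of_eq ?_)
  ring

end Crest.Agent.R82
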